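import Vale.Agent.H4.IDS.Count

namespace Vale.Agent.H4.IDS

open Finset

/-- `σ_{-1/2}(q)` -/
noncomputable def F (q : ℕ) : ℝ := ∑ d ∈ q.divisors, 1 / √(d : ℝ)

lemma one_le_F {q : ℕ} (hq : 1 ≤ q) : 1 ≤ F q := by
  have h1 : (1 : ℕ) ∈ q.divisors := by simp; omega
  have := Finset.single_le_sum (f := fun d : ℕ => 1 / √(d : ℝ)) (fun d _ => by positivity) h1
  simpa [F] using this

lemma sum_inv_le_F (q : ℕ) : ∑ d ∈ q.divisors, 1 / (d : ℝ) ≤ F q := by
  apply Finset.sum_le_sum
  intro d hd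
  have hd1 : 1 ≤ d := Nat.pos_of_mem_divisors hd
  have hd2 : (1 : ℝ) ≤ d := by exact_mod_cast hd1
  apply one_div_le_one_div_of_le
  · apply Real.sqrt_pos.mpr; linarith
  · rw [Real.sqrt_le_left (by linarith)]
    nlinarith

lemma log_le_two_sqrt (n : ℕ) : (Nat.log 2 n : ℝ) ≤ 2 * √(n : ℝ) := by
  rcases Nat.eq_zero_or_pos n with h | h
  · subst h; simp
  · have h1 : 2 ^ Nat.log 2 n ≤ n := Nat.pow_log_le_self 2 (by omega)
    have h2 : ∀ j : ℕ, j ^ 2 ≤ 4 * 2 ^ j := by
      intro j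
      induction j with
      | zero => simp
      | succ j ih =>
        rcases Nat.lt_or_ge j 3 with h3 | h3
        · interval_cases j <;> norm_num
        · rw [pow_succ 2 j]
          nlinarith
    have h3 : (Nat.log 2 n) ^ 2 ≤ 4 * n := (h2 _).trans (Nat.mul_le_mul_left 4 h1)
    have h4 : ((Nat.log 2 n : ℕ) : ℝ) ^ 2 ≤ 4 * n := by exact_mod_cast h3
    have h5 : (0 : ℝ) ≤ 2 * √(n : ℝ) := by positivity
    apply le_of_sq_le_sq _ h5 |> fun h => h
    rw [mul_pow, Real.sq_sqrt (by positivity)]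
    linarith

lemma sum_log_div_le_F (q : ℕ) : ∑ d ∈ q.divisors, (Nat.log 2 d : ℝ) / (d : ℝ) ≤ 2 * F q := by
  rw [F, Finset.mul_sum]
  apply Finset.sum_le_sum
  intro d hd
  have hd1 : 1 ≤ d := Nat.pos_of_mem_divisors hd
  have hd2 : (1 : ℝ) ≤ d := by exact_mod_cast hd1
  have h := log_le_two_sqrt d
  have hs : 0 < √(d : ℝ) := Real.sqrt_pos.mpr (by linarith)
  rw [div_le_iff₀ (by linarith)]
  calc (Nat.log 2 d : ℝ) ≤ 2 * √(d : ℝ) := h
    _ = 2 * (1 / √(d : ℝ)) * d := by
      have : (d : ℝ) = √(d : ℝ) * √(d : ℝ) := (Real.mul_self_sqrt (by linarith)).symm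
      rw [mul_assoc]
      congr 1
      rw [one_div, inv_mul_eq_div]
      rw [eq_div_iff hs.ne']
      exact this.symm

/-- `∑_{g ∣ r} (r/g) = r ∑ 1/g` -/
lemma sum_div_eq (r : ℕ) : ∑ g ∈ r.divisors, ((r / g : ℕ) : ℝ) = r * ∑ g ∈ r.divisors, 1 / (g : ℝ) := by
  rw [Finset.mul_sum]
  apply Finset.sum_congr rfl
  intro g hg
  have h1 : g ∣ r := Nat.dvd_of_mem_divisors hg
  have h2 : 0 < g := Nat.pos_of_mem_divisors hg
  rw [Nat.cast_div h1 (by positivity)]
  ring

/-- Numerators `b` modulo `r` whose point `(b+γ)/r` is too close to a rational with a small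
denominator. -/
def BadNum (γ K : ℝ) (r b : ℕ) : Prop :=
  ∃ g ∈ r.divisors, ∃ (ν : ℕ) (κ : ℤ), 1 ≤ ν ∧ IsCoprime (ν : ℤ) κ ∧ K * ν < (r / g : ℕ) ∧
    |ν * γ - κ| < 1 / (K * g) ∧ ((r / g : ℕ) : ℤ) ∣ ν * b + κ

/-- at most `g` solutions of `r' ∣ ν b + κ` with `0 ≤ b < g r'` -/
lemma card_solutions_le (g r' ν : ℕ) (κ : ℤ) (hcop : IsCoprime (ν : ℤ) κ)
    (S : Finset ℕ) (hS : ∀ b ∈ S, b < g * r' ∧ (r' : ℤ) ∣ ν * b + κ) : S.card ≤ g := by
  have h : S.card ≤ (Finset.range g).card := by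
    apply Finset.card_le_card_of_injOn (fun b => b / r')
    · intro b hb
      simp only [Finset.coe_range, Set.mem_Iio]
      apply Nat.div_lt_of_lt_mul
      have := (hS b hb).1
      rw [mul_comm]; exact this
    · intro b hb c hc hbc
      simp only at hbc
      have h1 := (hS b hb).2
      have h2 := (hS c hc).2
      have h3 : (r' : ℤ) ∣ ν * (b - c) := by
        have := dvd_sub h1 h2
        have e : (ν : ℤ) * b + κ - (ν * c + κ) = ν * (b - c) := by ring
        rwa [e] at this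
      have h4 : IsCoprime (r' : ℤ) (ν : ℤ) := by
        rw [Int.isCoprime_iff_gcd_eq_one]
        by_contra hne
        have hd1 : ((Int.gcd (r' : ℤ) (ν : ℤ) : ℕ) : ℤ) ∣ r' := Int.gcd_dvd_left ..
        have hd2 : ((Int.gcd (r' : ℤ) (ν : ℤ) : ℕ) : ℤ) ∣ ν := Int.gcd_dvd_right ..
        have hd3 : ((Int.gcd (r' : ℤ) (ν : ℤ) : ℕ) : ℤ) ∣ κ := by
          have e := hd1.trans h1
          have e2 : ((Int.gcd (r' : ℤ) (ν : ℤ) : ℕ) : ℤ) ∣ ν * b := Dvd.dvd.mul_right hd2 _
          exact (Int.dvd_add_right e2).mp e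
        have hu := hcop.isUnit_of_dvd' hd2 hd3
        rw [Int.isUnit_iff] at hu
        rcases hu with hu | hu
        · apply hne; exact_mod_cast hu
        · omega
      have h5 : (r' : ℤ) ∣ ((b : ℤ) - c) := h4.dvd_of_dvd_mul_left h3
      have h6 : (b : ℤ) % r' = c % r' := (Int.modEq_iff_dvd.mpr h5).symm
      have h7 : b % r' = c % r' := by exact_mod_cast h6
      rw [← Nat.div_add_mod b r', ← Nat.div_add_mod c r', hbc, h7]
  rwa [Finset.card_range] at h

lemma int_eq_of_close {x : ℝ} {m n : ℤ} {ε : ℝ} (hε : ε ≤ 1 / 2) (h1 : |x - m| < ε)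
    (h2 : |x - n| < ε) : m = n := by
  have h3 : |(m : ℝ) - n| < 1 := by
    have e : (m : ℝ) - n = (x - n) - (x - m) := by ring
    rw [e]
    have := abs_sub (x - n) (x - m)
    linarith
  have h4 : |m - n| < 1 := by exact_mod_cast h3
  have := Int.abs_lt_one_iff.mp h4
  omega

open Classical in
/-- For a fixed divisor `g` of `r` few classes are bad. -/
lemma bad_card_g (γ K : ℝ) (hK : 2 ≤ K) (r g : ℕ) (hr : 1 ≤ r) (hg : g ∈ r.divisors) :
    (((Finset.range r).filter (fun b : ℕ => ∃ (ν : ℕ) (κ : ℤ), 1 ≤ ν ∧ IsCoprime (ν : ℤ) κ ∧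
      K * ν < (r / g : ℕ) ∧ |ν * γ - κ| < 1 / (K * g) ∧ ((r / g : ℕ) : ℤ) ∣ ν * b + κ)).card : ℝ)
      ≤ 16 / K ^ 2 * (r / g : ℕ) + (if K < (r / g : ℕ) then (g : ℝ) else 0) := by
  have hgd : g ∣ r := Nat.dvd_of_mem_divisors hg
  have hg0 : 0 < g := Nat.pos_of_mem_divisors hg
  have hKpos : 0 < K := by linarith
  set r' := r / g with hr'
  have hrr : r = g * r' := (Nat.mul_div_cancel' hgd).symm
  have hr'0 : 0 < r' := by
    apply Nat.pos_of_ne_zero
    rintro h0
    rw [h0] at hrr; omega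
  have hg1 : (1 : ℝ) ≤ g := by exact_mod_cast hg0
  by_cases hKr : K < (r' : ℝ)
  · rw [if_pos hKr]
    set X := ⌊(r' : ℝ) / K⌋₊ with hX
    have hXle : (X : ℝ) ≤ r' / K := Nat.floor_le (by positivity)
    have hX1 : 1 ≤ X := by
      apply Nat.le_floor
      rw [le_div_iff₀ hKpos]; push_cast; linarith
    -- the set of relevant ν
    set V := (Finset.Icc 1 X).filter (fun m : ℕ => ∃ κ : ℤ, IsCoprime (m : ℤ) κ ∧
      |m * γ - κ| < 1 / (K * g)) with hV
    have hex : ∀ m : ℕ, ∃ κ : ℤ, m ∈ V → (IsCoprime (m : ℤ) κ ∧ |m * γ - κ| < 1 / (K * g)) := by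
      intro m
      by_cases hm : m ∈ V
      · obtain ⟨κ, h⟩ := (Finset.mem_filter.mp hm).2
        exact ⟨κ, fun _ => h⟩
      · exact ⟨0, fun h => absurd h hm⟩
    choose κf hκf using hex
    have hKg : 1 / (K * g) ≤ 1 / 2 := by
      apply one_div_le_one_div_of_le (by norm_num)
      nlinarith
    -- V is small
    have hVcard : (V.card : ℝ) ≤ 16 * X * (1 / (K * g)) + 1 := by
      have hinj : (V.image (fun m : ℕ => (m : ℤ))).card = V.card :=
        Finset.card_image_of_injective _ Nat.cast_injective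
      have hcA : ∀ m ∈ V.image (fun m : ℕ => (m : ℤ)), (0 : ℤ) ≤ m ∧ m ≤ 0 + X := by
        intro m hm
        obtain ⟨n, hn, rfl⟩ := Finset.mem_image.mp hm
        obtain ⟨hn1, _⟩ := Finset.mem_filter.mp hn
        obtain ⟨h3, h4⟩ := Finset.mem_Icc.mp hn1
        constructor <;> omega
      have hcB : ∀ m ∈ V.image (fun m : ℕ => (m : ℤ)),
          |(m : ℝ) * γ - (fun m : ℤ => κf m.toNat) m| < 1 / (K * g) := by
        intro m hm
        obtain ⟨n, hn, rfl⟩ := Finset.mem_image.mp hm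
        have := (hκf n hn).2
        simpa using this
      rcases counting γ X hX1 (1 / (K * g)) (by positivity) (V.image (fun m : ℕ => (m : ℤ))) 0 hcA
        (fun m => κf m.toNat) hcB with h | ⟨ν, κ, hν1, hνX, hcop, hδ, hτν, hc1, hc2⟩
      · rwa [hinj] at h
      · -- all elements equal ν
        have hsub : V ⊆ {ν} := by
          intro m hm
          rw [Finset.mem_singleton]
          obtain ⟨hm1, hm2⟩ := Finset.mem_filter.mp hm
          obtain ⟨hm3, hm4⟩ := Finset.mem_Icc.mp hm1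
          obtain ⟨hc, hlt⟩ := hκf m hm
          have hνpos : (0 : ℝ) < ν := by exact_mod_cast hν1
          have hXpos : (0 : ℝ) < X := by exact_mod_cast hX1
          have hD : (ν : ℤ) * κf m - κ * m = 0 := by
            have hlt1 : |(ν : ℝ) * κf m - κ * m| < 1 := by
              have e1 : (ν : ℝ) * κf m - κ * m = m * (ν * γ - κ) - ν * (m * γ - κf m) := by ring
              rw [e1]
              have e2 := abs_sub ((m : ℝ) * (ν * γ - κ)) (ν * (m * γ - κf m))
              rw [abs_mul, abs_mul, abs_of_pos hνpos, abs_of_nonneg (Nat.cast_nonneg m : (0 : ℝ) ≤ (m : ℝ))] at e2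
              have e3 : (m : ℝ) * |ν * γ - κ| ≤ 1 / 8 := by
                calc (m : ℝ) * |ν * γ - κ| ≤ X * (1 / (8 * X)) := by
                      apply mul_le_mul (by exact_mod_cast hm4) hδ.le (abs_nonneg _) hXpos.le
                  _ = 1 / 8 := by field_simp
              have e4 : (ν : ℝ) * |m * γ - κf m| ≤ 1 / 4 := by
                calc (ν : ℝ) * |m * γ - κf m| ≤ ν * (1 / (4 * ν)) := by
                      apply mul_le_mul_of_nonneg_left _ hνpos.le
                      linarith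
                  _ = 1 / 4 := by field_simp
              linarith
            have : |(ν : ℤ) * κf m - κ * m| < 1 := by exact_mod_cast hlt1
            exact Int.abs_lt_one_iff.mp this
          have hd1 : (m : ℤ) ∣ ν := by
            have : (m : ℤ) ∣ ν * κf m := ⟨κ, by linarith⟩
            exact hc.dvd_of_dvd_mul_right this
          have hd2 : (ν : ℤ) ∣ m := by
            have : (ν : ℤ) ∣ κ * m := ⟨κf m, by linarith⟩
            exact hcop.dvd_of_dvd_mul_left this
          have hd1' : m ∣ ν := by exact_mod_cast hd1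
          have hd2' : ν ∣ m := by exact_mod_cast hd2
          exact Nat.dvd_antisymm hd1' hd2'
        have h1 : V.card ≤ 1 := by
          calc V.card ≤ ({ν} : Finset ℕ).card := Finset.card_le_card hsub
            _ = 1 := Finset.card_singleton _
        have h2 : (V.card : ℝ) ≤ 1 := by exact_mod_cast h1
        have h3 : 0 ≤ 16 * (X : ℝ) * (1 / (K * g)) := by positivity
        linarith
    -- cover
    have hcover : ((Finset.range r).filter (fun b : ℕ => ∃ (ν : ℕ) (κ : ℤ), 1 ≤ ν ∧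
        IsCoprime (ν : ℤ) κ ∧ K * ν < (r' : ℕ) ∧ |ν * γ - κ| < 1 / (K * g) ∧
        ((r' : ℕ) : ℤ) ∣ ν * b + κ)) ⊆
        V.biUnion (fun ν => (Finset.range r).filter (fun b : ℕ => (r' : ℤ) ∣ ν * b + κf ν)) := by
      intro b hb
      obtain ⟨hb1, ν, κ, hν1, hcop, hKν, hlt, hdvd⟩ := Finset.mem_filter.mp hb
      rw [Finset.mem_biUnion]
      have hνV : ν ∈ V := by
        rw [hV, Finset.mem_filter, Finset.mem_Icc]
        refine ⟨⟨hν1, ?_⟩, κ, hcop, hlt⟩
        apply Nat.le_floor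
        rw [le_div_iff₀ hKpos]
        linarith
      refine ⟨ν, hνV, ?_⟩
      rw [Finset.mem_filter]
      refine ⟨hb1, ?_⟩
      have : κ = κf ν := int_eq_of_close hKg hlt (hκf ν hνV).2
      rw [← this]; exact hdvd
    have hcard := (Finset.card_le_card hcover).trans (Finset.card_biUnion_le)
    have hcard2 : (V.card : ℝ) * g ≤ 16 / K ^ 2 * r' + g := by
      calc (V.card : ℝ) * g ≤ (16 * X * (1 / (K * g)) + 1) * g := by
            apply mul_le_mul_of_nonneg_right hVcard (by positivity)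
        _ ≤ (16 * (r' / K) * (1 / (K * g)) + 1) * g := by
            apply mul_le_mul_of_nonneg_right _ (by positivity)
            gcongr
        _ = 16 / K ^ 2 * r' + g := by field_simp
    refine le_trans ?_ hcard2
    have hcard3 : ∑ ν ∈ V, ((Finset.range r).filter (fun b : ℕ => (r' : ℤ) ∣ ν * b + κf ν)).card
        ≤ V.card * g := by
      rw [← smul_eq_mul]
      apply Finset.sum_le_card_nsmul
      intro ν hν
      apply card_solutions_le g r' ν (κf ν) (hκf ν hν).1
      intro b hb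
      obtain ⟨h1, h2⟩ := Finset.mem_filter.mp hb
      rw [Finset.mem_range] at h1
      exact ⟨by rw [← hrr]; exact h1, h2⟩
    exact_mod_cast hcard.trans hcard3
  · rw [if_neg hKr]
    have hempty : ((Finset.range r).filter (fun b : ℕ => ∃ (ν : ℕ) (κ : ℤ), 1 ≤ ν ∧
        IsCoprime (ν : ℤ) κ ∧ K * ν < (r' : ℕ) ∧ |ν * γ - κ| < 1 / (K * g) ∧
        ((r' : ℕ) : ℤ) ∣ ν * b + κ)) = ∅ := by
      rw [Finset.filter_eq_empty_iff]
      rintro b _ ⟨ν, κ, hν1, _, hKν, _⟩
      apply hKr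
      have : (1 : ℝ) ≤ ν := by exact_mod_cast hν1
      nlinarith
    rw [hempty]
    simp
    positivity

open Classical in
lemma bad_card (γ K : ℝ) (hK : 2 ≤ K) (r : ℕ) (hr : 1 ≤ r) :
    (((Finset.range r).filter (fun b => BadNum γ K r b)).card : ℝ)
      ≤ r * F r * (1 / √K + 16 / K ^ 2) := by
  have hKpos : 0 < K := by linarith
  have hcover : ((Finset.range r).filter (fun b => BadNum γ K r b)) ⊆
      r.divisors.biUnion (fun g => (Finset.range r).filter (fun b : ℕ => ∃ (ν : ℕ) (κ : ℤ),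
        1 ≤ ν ∧ IsCoprime (ν : ℤ) κ ∧
      K * ν < (r / g : ℕ) ∧ |ν * γ - κ| < 1 / (K * g) ∧ ((r / g : ℕ) : ℤ) ∣ ν * b + κ)) := by
    intro b hb
    obtain ⟨hb1, g, hg, h⟩ := Finset.mem_filter.mp hb
    rw [Finset.mem_biUnion]
    exact ⟨g, hg, Finset.mem_filter.mpr ⟨hb1, h⟩⟩
  have h1 := (Finset.card_le_card hcover).trans Finset.card_biUnion_le
  have h2 : (((Finset.range r).filter (fun b => BadNum γ K r b)).card : ℝ) ≤
      ∑ g ∈ r.divisors, (16 / K ^ 2 * ((r / g : ℕ) : ℝ) + (if K < (r / g : ℕ) then (g : ℝ) else 0)) := by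
    refine le_trans ((Nat.cast_le (α := ℝ)).mpr h1) ?_
    rw [Nat.cast_sum]
    apply Finset.sum_le_sum
    intro g hg
    exact bad_card_g γ K hK r g hr hg
  refine h2.trans ?_
  rw [Finset.sum_add_distrib, ← Finset.mul_sum, sum_div_eq]
  have h3 : ∑ g ∈ r.divisors, (if K < (r / g : ℕ) then (g : ℝ) else 0) ≤ r * F r * (1 / √K) := by
    have e1 : ∑ g ∈ r.divisors, (if K < (r / g : ℕ) then (g : ℝ) else 0)
        = ∑ g ∈ r.divisors, (fun d : ℕ => if K < (d : ℝ) then (r : ℝ) / d else 0) (r / g) := by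
      apply Finset.sum_congr rfl
      intro g hg
      have hgd : g ∣ r := Nat.dvd_of_mem_divisors hg
      have hg0 : 0 < g := Nat.pos_of_mem_divisors hg
      simp only
      split_ifs with h
      · rw [Nat.cast_div hgd (by positivity)]
        have : (r : ℝ) ≠ 0 := by positivity
        field_simp
      · rfl
    rw [e1, Nat.sum_div_divisors r (fun d : ℕ => if K < (d : ℝ) then (r : ℝ) / d else 0)]
    have e2 : (r : ℝ) * F r * (1 / √K) = ∑ d ∈ r.divisors, r * (1 / √(d : ℝ)) * (1 / √K) := by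
      rw [F, Finset.mul_sum, Finset.sum_mul]
    rw [e2]
    apply Finset.sum_le_sum
    intro d hd
    have hd0 : 0 < d := Nat.pos_of_mem_divisors hd
    have hdp : (0 : ℝ) < d := by exact_mod_cast hd0
    split_ifs with h
    · have hs : √K * √(d : ℝ) ≤ d := by
        calc √K * √(d : ℝ) ≤ √(d : ℝ) * √(d : ℝ) := by
              apply mul_le_mul_of_nonneg_right (Real.sqrt_le_sqrt h.le) (Real.sqrt_nonneg _)
          _ = d := Real.mul_self_sqrt hdp.le
      have hKs : 0 < √K := Real.sqrt_pos.mpr hKpos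
      have hds : 0 < √(d : ℝ) := Real.sqrt_pos.mpr hdp
      have : (1 : ℝ) / d ≤ 1 / √(d : ℝ) * (1 / √K) := by
        rw [one_div_mul_one_div]
        apply one_div_le_one_div_of_le (by positivity)
        rw [mul_comm]; exact hs
      calc (r : ℝ) / d = r * (1 / d) := by ring
        _ ≤ r * (1 / √(d : ℝ) * (1 / √K)) := by
            apply mul_le_mul_of_nonneg_left this (by positivity)
        _ = _ := by ring
    · positivity
  have h4 : 16 / K ^ 2 * (r * ∑ g ∈ r.divisors, 1 / (g : ℝ)) ≤ r * F r * (16 / K ^ 2) := by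
    have := sum_inv_le_F r
    calc 16 / K ^ 2 * (r * ∑ g ∈ r.divisors, 1 / (g : ℝ))
        ≤ 16 / K ^ 2 * (r * F r) := by gcongr
      _ = _ := by ring
  calc _ ≤ r * F r * (16 / K ^ 2) + r * F r * (1 / √K) := add_le_add h4 h3
    _ = _ := by ring

end Vale.Agent.H4.IDS
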