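import Vale.Agent.H4.IDS.Pair

namespace Vale.Agent.H4.IDS

open Finset

lemma geom_le (J : Finset ℕ) (x : ℝ) (hx0 : 0 < x) (hx1 : x < 1) (B : ℝ) (hB0 : 0 ≤ B)
    (hB : ∀ j ∈ J, x ^ j ≤ B) : ∑ j ∈ J, x ^ j ≤ B / (1 - x) := by
  have h1x : 0 < 1 - x := by linarith
  rcases J.eq_empty_or_nonempty with h | h
  · rw [h]; simp; positivity
  · set m := J.min' h with hm
    have hmJ : m ∈ J := J.min'_mem h
    have h1 : ∑ j ∈ J, x ^ j = x ^ m * ∑ j ∈ J, x ^ (j - m) := by
      rw [Finset.mul_sum]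
      apply Finset.sum_congr rfl
      intro j hj
      rw [← pow_add]
      congr 1
      have := J.min'_le j hj
      omega
    have h2 : ∑ j ∈ J, x ^ (j - m) ≤ 1 / (1 - x) := by
      have hinj : Set.InjOn (fun j => j - m) J := by
        intro a ha b hb hab
        have h1 := J.min'_le a ha
        have h2 := J.min'_le b hb
        simp only at hab
        omega
      have e : ∑ j ∈ J, x ^ (j - m) = ∑ i ∈ J.image (fun j => j - m), x ^ i := by
        rw [Finset.sum_image hinj]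
      rw [e]
      have hs : Summable (fun i : ℕ => x ^ i) := summable_geometric_of_lt_one hx0.le hx1
      have := hs.sum_le_tsum (J.image (fun j => j - m)) (fun i _ => by positivity)
      rw [tsum_geometric_of_lt_one hx0.le hx1] at this
      rw [one_div]; exact this
    rw [h1]
    calc x ^ m * ∑ j ∈ J, x ^ (j - m) ≤ x ^ m * (1 / (1 - x)) := by gcongr
      _ ≤ B * (1 / (1 - x)) := by
          apply mul_le_mul_of_nonneg_right (hB m hmJ) (by positivity)
      _ = _ := by ring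

lemma card_log_le (J : Finset ℕ) (g : ℕ)
    (h : ∀ i ∈ J, ∀ j ∈ J, 2 ^ j < 2 * g * 2 ^ i) : J.card ≤ Nat.log 2 g + 2 := by
  rcases J.eq_empty_or_nonempty with he | hne
  · rw [he]; simp
  · set m := J.min' hne with hm
    have hmJ : m ∈ J := J.min'_mem hne
    have hsub : J ⊆ Finset.Icc m (m + Nat.log 2 g + 1) := by
      intro j hj
      rw [Finset.mem_Icc]
      have h1 := J.min'_le j hj
      refine ⟨h1, ?_⟩
      by_contra hcon
      push Not at hcon
      have h2 := h m hmJ j hj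
      have h3 : g < 2 ^ (Nat.log 2 g + 1) := Nat.lt_pow_succ_log_self (by omega) g
      have h4 : 2 ^ (m + Nat.log 2 g + 2) ≤ 2 ^ j := Nat.pow_le_pow_right (by omega) (by omega)
      have h5 : 2 ^ (m + Nat.log 2 g + 2) = 2 * 2 ^ (Nat.log 2 g + 1) * 2 ^ m := by
        rw [pow_add, pow_add, pow_add]; ring
      have h6 : 2 * g * 2 ^ m ≤ 2 * 2 ^ (Nat.log 2 g + 1) * 2 ^ m := by gcongr
      omega
    calc J.card ≤ (Finset.Icc m (m + Nat.log 2 g + 1)).card := Finset.card_le_card hsub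
      _ = _ := by rw [Nat.card_Icc]; omega

/-- one dyadic block of denominators `q = g q'` for a fixed `r = g r'` -/
lemma block_I (γ K : ℝ) (hK : 0 < K) (ψ : ℕ → ℝ) (g r' : ℕ) (hg : 0 < g) (hr' : 0 < r')
    (hψr : ψ (g * r') / (g * r' : ℕ) ≤ 1 / (16 * (g * r' : ℕ) ^ 2)) (j : ℕ) (B : Finset ℕ)
    (hB : ∀ q' ∈ B, 2 ^ j ≤ q' ∧ q' < 2 ^ (j + 1) ∧ q' < r' ∧ Nat.Coprime q' r' ∧
      ψ (g * q') / (g * q' : ℕ) ≤ 1 / (16 * (g * r' : ℕ) ^ 2) ∧
      ∃ a b : ℕ, Coin γ ψ (g * q') a (g * r') b ∧ ¬ BadNum γ K (g * r') b) :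
    (B.card : ℝ) ≤ (4 / g + 3 * K / (2 * r')) * 2 ^ j + 1 := by
  classical
  rcases B.eq_empty_or_nonempty with hem | hne
  · rw [hem]; simp; positivity
  have hgR : (0 : ℝ) < g := by exact_mod_cast hg
  have hrR : (0 : ℝ) < r' := by exact_mod_cast hr'
  set X := 2 ^ j with hX
  have hX1 : 1 ≤ X := Nat.one_le_two_pow
  have hXR : (1 : ℝ) ≤ X := by exact_mod_cast hX1
  have hXr : X < r' := by
    obtain ⟨q', hq'⟩ := hne
    have := hB q' hq'
    omega
  have hXrR : (X : ℝ) ≤ r' := by exact_mod_cast hXr.le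
  set τ : ℝ := X / (4 * g * r') with hτdef
  have hτ : 0 < τ := by positivity
  set M := B.image (fun q' : ℕ => (r' : ℤ) - q') with hMdef
  have hMcard : M.card = B.card := by
    apply Finset.card_image_of_injective
    intro a b hab
    simp only at hab
    omega
  -- choose data
  have hex : ∀ m : ℤ, ∃ kk : ℤ, m ∈ M → (|m * γ - kk| < τ ∧ ∃ q' a b : ℕ, q' ∈ B ∧
      m = (r' : ℤ) - q' ∧ kk = (q' : ℤ) * b - r' * a ∧ ¬ BadNum γ K (g * r') b) := by
    intro m
    by_cases hm : m ∈ M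
    · obtain ⟨q', hq', rfl⟩ := Finset.mem_image.mp hm
      obtain ⟨h1, h2, h3, h4, h5, a, b, h6, h7⟩ := hB q' hq'
      refine ⟨(q' : ℤ) * b - r' * a, fun _ => ⟨?_, q', a, b, hq', rfl, rfl, h7⟩⟩
      have hq'0 : 0 < q' := by omega
      have hqR : (0 : ℝ) < q' := by exact_mod_cast hq'0
      have e : ((a : ℝ) + γ) / (g * q' : ℕ) - ((b : ℝ) + γ) / (g * r' : ℕ)
        = ((((r' : ℤ) - q' : ℤ) : ℝ) * γ - (((q' : ℤ) * b - r' * a : ℤ) : ℝ)) / (g * q' * r') := by
        push_cast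
        field_simp
        ring
      unfold Coin at h6
      rw [e, abs_div, abs_of_pos (by positivity : (0 : ℝ) < g * q' * r'), div_lt_iff₀ (by positivity)]
        at h6
      refine lt_of_lt_of_le h6 ?_
      have h8 : ψ (g * q') / (g * q' : ℕ) + ψ (g * r') / (g * r' : ℕ)
          ≤ 1 / (8 * (g * r' : ℕ) ^ 2) := by
        have : 1 / (8 * ((g * r' : ℕ) : ℝ) ^ 2) = 1 / (16 * ((g * r' : ℕ) : ℝ) ^ 2)
          + 1 / (16 * ((g * r' : ℕ) : ℝ) ^ 2) := by
          have : ((g * r' : ℕ) : ℝ) ≠ 0 := by positivity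
          field_simp; norm_num
        rw [this]; exact add_le_add h5 hψr
      calc (ψ (g * q') / (g * q' : ℕ) + ψ (g * r') / (g * r' : ℕ)) * (g * q' * r')
          ≤ 1 / (8 * (g * r' : ℕ) ^ 2) * (g * q' * r') := by
            apply mul_le_mul_of_nonneg_right h8 (by positivity)
        _ = q' / (8 * g * r') := by push_cast; field_simp
        _ ≤ τ := by
            rw [hτdef, div_le_div_iff₀ (by positivity) (by positivity)]
            have : (q' : ℝ) ≤ 2 * X := by
              have : q' ≤ 2 * X := by rw [hX]; rw [pow_succ] at h2; omega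
              exact_mod_cast this
            have p : 0 ≤ (g : ℝ) * r' := by positivity
            nlinarith
    · exact ⟨0, fun h => absurd h hm⟩
  choose k hk using hex
  have hcount := countU γ X hX1 r' hXrR τ hτ M ((r' : ℤ) - 2 * X) ?_ ?_ k
    (fun m hm => (hk m hm).1) K g r' hK hgR hrR ?_
  · rw [hMcard] at hcount
    refine hcount.trans (le_of_eq ?_)
    rw [hτdef]
    have hXc : (X : ℝ) = 2 ^ j := by rw [hX]; push_cast; ring
    rw [← hXc]
    field_simp
    ring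
  · intro m hm
    obtain ⟨q', hq', rfl⟩ := Finset.mem_image.mp hm
    obtain ⟨h1, h2, _⟩ := hB q' hq'
    rw [pow_succ] at h2
    constructor <;> omega
  · intro m hm
    obtain ⟨q', hq', rfl⟩ := Finset.mem_image.mp hm
    obtain ⟨h1, h2, h3, _⟩ := hB q' hq'
    constructor
    · omega
    · push_cast
      have : (0 : ℝ) ≤ q' := by positivity
      linarith
  · intro ν κ hν hc hal hMne
    obtain ⟨m, hm⟩ := hMne
    obtain ⟨_, q', a, b, hq'B, hmq, hkk, hgood⟩ := hk m hm
    obtain ⟨h1, h2, h3, h4, h5, _⟩ := hB q' hq'B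
    have h := hal m hm
    rw [hkk, hmq] at h
    exact aligned_bad γ K hK g q' r' a b ν κ hg hr' h4 hν hc h hgood

/-- one dyadic block of denominators `r = g r'` for a fixed `q = g q'` -/
lemma block_II (γ K : ℝ) (hK : 0 < K) (ψ : ℕ → ℝ) (hψ0 : ∀ q, 0 ≤ ψ q) (g q' : ℕ) (hg : 0 < g)
    (hq' : 0 < q') (j : ℕ) (B : Finset ℕ)
    (hB : ∀ r' ∈ B, 2 ^ j ≤ r' ∧ r' < 2 ^ (j + 1) ∧ q' < r' ∧ Nat.Coprime q' r' ∧
      ψ (g * r') / (g * r' : ℕ) ≤ 1 / (16 * (g * r' : ℕ) ^ 2) ∧
      1 / (16 * (g * r' : ℕ) ^ 2) < ψ (g * q') / (g * q' : ℕ) ∧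
      ∃ a b : ℕ, Coin γ ψ (g * q') a (g * r') b ∧ ¬ BadNum γ K (g * r') b) :
    (B.card : ℝ) ≤ 128 * (2 ^ j) ^ 2 * ψ (g * q') + K + 8 * K * g * 2 ^ j * ψ (g * q') + 1 := by
  classical
  have hgR : (0 : ℝ) < g := by exact_mod_cast hg
  have hqR : (0 : ℝ) < q' := by exact_mod_cast hq'
  have hψq := hψ0 (g * q')
  rcases B.eq_empty_or_nonempty with hem | hne
  · rw [hem]; simp; positivity
  set X := 2 ^ j with hX
  have hX1 : 1 ≤ X := Nat.one_le_two_pow
  have hXR : (1 : ℝ) ≤ X := by exact_mod_cast hX1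
  have hψpos : 0 < ψ (g * q') := by
    obtain ⟨r', hr'⟩ := hne
    obtain ⟨_, _, _, _, _, h6, _⟩ := hB r' hr'
    have h7 : (0 : ℝ) < ψ (g * q') / (g * q' : ℕ) := lt_of_le_of_lt (by positivity) h6
    have h8 : (0 : ℝ) < ((g * q' : ℕ) : ℝ) := by positivity
    exact (div_pos_iff_of_pos_right h8).mp h7
  set τ : ℝ := 4 * X * ψ (g * q') with hτdef
  have hτ : 0 < τ := by positivity
  set M := B.image (fun r' : ℕ => (r' : ℤ) - q') with hMdef
  have hMcard : M.card = B.card := by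
    apply Finset.card_image_of_injective
    intro a b hab
    simp only at hab
    omega
  have hex : ∀ m : ℤ, ∃ kk : ℤ, m ∈ M → (|m * γ - kk| < τ ∧ ∃ r' a b : ℕ, r' ∈ B ∧
      m = (r' : ℤ) - q' ∧ kk = (q' : ℤ) * b - r' * a ∧ ¬ BadNum γ K (g * r') b) := by
    intro m
    by_cases hm : m ∈ M
    · obtain ⟨r', hr', rfl⟩ := Finset.mem_image.mp hm
      obtain ⟨h1, h2, h3, h4, h5, h5', a, b, h6, h7⟩ := hB r' hr'
      refine ⟨(q' : ℤ) * b - r' * a, fun _ => ⟨?_, r', a, b, hr', rfl, rfl, h7⟩⟩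
      have hr'0 : 0 < r' := by omega
      have hrR : (0 : ℝ) < r' := by exact_mod_cast hr'0
      have e : ((a : ℝ) + γ) / (g * q' : ℕ) - ((b : ℝ) + γ) / (g * r' : ℕ)
        = ((((r' : ℤ) - q' : ℤ) : ℝ) * γ - (((q' : ℤ) * b - r' * a : ℤ) : ℝ)) / (g * q' * r') := by
        push_cast
        field_simp
        ring
      unfold Coin at h6
      rw [e, abs_div, abs_of_pos (by positivity : (0 : ℝ) < g * q' * r'), div_lt_iff₀ (by positivity)]
        at h6
      refine lt_of_lt_of_le h6 ?_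
      have h8 : ψ (g * q') / (g * q' : ℕ) + ψ (g * r') / (g * r' : ℕ)
          ≤ 2 * (ψ (g * q') / (g * q' : ℕ)) := by linarith
      calc (ψ (g * q') / (g * q' : ℕ) + ψ (g * r') / (g * r' : ℕ)) * (g * q' * r')
          ≤ 2 * (ψ (g * q') / (g * q' : ℕ)) * (g * q' * r') := by
            apply mul_le_mul_of_nonneg_right h8 (by positivity)
        _ = 2 * r' * ψ (g * q') := by push_cast; field_simp
        _ ≤ τ := by
            rw [hτdef]
            have : (r' : ℝ) ≤ 2 * X := by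
              have : r' ≤ 2 * X := by rw [hX]; rw [pow_succ] at h2; omega
              exact_mod_cast this
            nlinarith
    · exact ⟨0, fun h => absurd h hm⟩
  choose k hk using hex
  have hcount := countU γ X hX1 (2 * X) (by linarith) τ hτ M ((X : ℤ) - q') ?_ ?_ k
    (fun m hm => (hk m hm).1) K g X hK hgR (by linarith) ?_
  · rw [hMcard] at hcount
    refine hcount.trans (le_of_eq ?_)
    rw [hτdef]
    have hXc : (X : ℝ) = 2 ^ j := by rw [hX]; push_cast; ring
    rw [← hXc]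
    field_simp
    ring
  · intro m hm
    obtain ⟨r', hr', rfl⟩ := Finset.mem_image.mp hm
    obtain ⟨h1, h2, _⟩ := hB r' hr'
    rw [pow_succ] at h2
    constructor <;> omega
  · intro m hm
    obtain ⟨r', hr', rfl⟩ := Finset.mem_image.mp hm
    obtain ⟨h1, h2, h3, _⟩ := hB r' hr'
    constructor
    · omega
    · push_cast
      have h9 : (r' : ℝ) ≤ 2 * X := by
        have : r' ≤ 2 * X := by rw [hX]; rw [pow_succ] at h2; omega
        exact_mod_cast this
      linarith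
  · intro ν κ hν hc hal hMne
    obtain ⟨m, hm⟩ := hMne
    obtain ⟨_, r', a, b, hr'B, hmq, hkk, hgood⟩ := hk m hm
    obtain ⟨h1, h2, h3, h4, h5, _⟩ := hB r' hr'B
    have h := hal m hm
    rw [hkk, hmq] at h
    rcases aligned_bad γ K hK g q' r' a b ν κ hg (by omega) h4 hν hc h hgood with h' | h'
    · left
      have : (X : ℝ) ≤ r' := by exact_mod_cast h1
      linarith
    · right; exact h'

end Vale.Agent.H4.IDS
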