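import Mathlib

namespace Vale.Agent.H4.IDS

open Finset

/-- Points of a finite family lying in `[-L, L]` and pairwise `σ`-separated. -/
lemma card_le_of_separated {ι : Type*} (s : Finset ι) (f : ι → ℝ) (L σ : ℝ) (hσ : 0 < σ)
    (hL : 0 ≤ L) (hf : ∀ i ∈ s, |f i| ≤ L)
    (hsep : ∀ i ∈ s, ∀ j ∈ s, i ≠ j → σ ≤ |f i - f j|) :
    (s.card : ℝ) ≤ 2 * L / σ + 1 := by
  have h1 : s.card ≤ (Finset.range (⌊2 * L / σ⌋₊ + 1)).card := by
    apply Finset.card_le_card_of_injOn (fun i => ⌊(f i + L) / σ⌋₊)
    · intro i hi
      have h := abs_le.mp (hf i hi)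
      simp only [Finset.coe_range, Set.mem_Iio]
      apply Nat.lt_succ_of_le
      apply Nat.floor_le_floor
      apply div_le_div_of_nonneg_right _ hσ.le
      linarith
    · intro i hi j hj hij
      by_contra hne
      have hs := hsep i hi j hj hne
      have hi' := abs_le.mp (hf i hi)
      have hj' := abs_le.mp (hf j hj)
      simp only at hij
      have a1 := Nat.floor_le (a := (f i + L) / σ) (by apply div_nonneg _ hσ.le; linarith)
      have a2 := Nat.lt_floor_add_one ((f i + L) / σ)
      have b1 := Nat.floor_le (a := (f j + L) / σ) (by apply div_nonneg _ hσ.le; linarith)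
      have b2 := Nat.lt_floor_add_one ((f j + L) / σ)
      rw [hij] at a1 a2
      have h3 : |(f i + L) / σ - (f j + L) / σ| < 1 := by
        rw [abs_lt]; constructor <;> linarith
      have h4 : (f i + L) / σ - (f j + L) / σ = (f i - f j) / σ := by ring
      rw [h4, abs_div, abs_of_pos hσ, div_lt_one hσ] at h3
      linarith
  rw [Finset.card_range] at h1
  have h2 : (⌊2 * L / σ⌋₊ : ℝ) ≤ 2 * L / σ := Nat.floor_le (by positivity)
  have h3 : (s.card : ℝ) ≤ (⌊2 * L / σ⌋₊ + 1 : ℕ) := by exact_mod_cast h1
  push_cast at h3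
  linarith

/-- integers in an interval, pairwise at distance at least `n` -/
lemma card_le_of_int_separated (M : Finset ℤ) (s : ℤ) (X : ℕ) (n : ℝ) (hn : 0 < n)
    (hM : ∀ m ∈ M, s ≤ m ∧ m ≤ s + X)
    (hsep : ∀ m ∈ M, ∀ m' ∈ M, m ≠ m' → n ≤ |(m : ℝ) - m'|) :
    (M.card : ℝ) ≤ X / n + 1 := by
  have h := card_le_of_separated M (fun m : ℤ => (m : ℝ) - s - X / 2) (X / 2) n hn
    (by positivity) ?_ ?_
  · have h2 : 2 * ((X : ℝ) / 2) / n = X / n := by ring
    rw [h2] at h; exact h
  · intro m hm
    obtain ⟨h1, h2⟩ := hM m hm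
    have h1' : (s : ℝ) ≤ m := by exact_mod_cast h1
    have h2' : (m : ℝ) ≤ s + X := by exact_mod_cast h2
    rw [abs_le]; constructor <;> linarith
  · intro m hm m' hm' hne
    have := hsep m hm m' hm' hne
    have h3 : (m : ℝ) - s - X / 2 - (m' - s - X / 2) = m - m' := by ring
    rw [h3]; exact this

/-- The structure of small values of `m γ` modulo one on an interval of length `X`. -/
lemma counting (γ : ℝ) (X : ℕ) (hX : 1 ≤ X) (τ : ℝ) (hτ : 0 < τ) (M : Finset ℤ) (s : ℤ)
    (hM : ∀ m ∈ M, s ≤ m ∧ m ≤ s + X) (k : ℤ → ℤ) (hk : ∀ m ∈ M, |m * γ - k m| < τ) :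
    ((M.card : ℝ) ≤ 16 * X * τ + 1) ∨
    ∃ (ν : ℕ) (κ : ℤ), 1 ≤ ν ∧ ν ≤ X ∧ IsCoprime (ν : ℤ) κ ∧ |ν * γ - κ| < 1 / (8 * X) ∧
      τ < 1 / (4 * ν) ∧ (M.card : ℝ) ≤ X / ν + 1 ∧ ((M.card : ℝ) - 1) * |ν * γ - κ| ≤ 2 * τ := by
  have hXpos : (0 : ℝ) < X := by exact_mod_cast hX
  by_cases hA : ∀ d : ℕ, 1 ≤ d → d ≤ X → ∀ e : ℤ, 1 / (8 * (X : ℝ)) ≤ |d * γ - e|
  · left
    have h := card_le_of_separated M (fun m : ℤ => (m : ℝ) * γ - k m) τ (1 / (8 * (X : ℝ)))
      (by positivity) hτ.le (fun m hm => (hk m hm).le) ?_
    · have : 2 * τ / (1 / (8 * (X : ℝ))) = 16 * X * τ := by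
        field_simp; ring
      rw [this] at h; exact h
    · intro m hm m' hm' hne
      have key : ∀ m ∈ M, ∀ m' ∈ M, m' < m →
          1 / (8 * (X : ℝ)) ≤ |(m : ℝ) * γ - k m - (m' * γ - k m')| := by
        intro m hm m' hm' hlt
        have h1 := hM m hm
        have h2 := hM m' hm'
        have h3 := hA (m - m').toNat (by omega) (by omega) (k m - k m')
        have h4 : (((m - m').toNat : ℕ) : ℝ) = (m : ℝ) - m' := by
          have : (((m - m').toNat : ℕ) : ℤ) = m - m' := by omega
          have h5 : ((((m - m').toNat : ℕ) : ℤ) : ℝ) = ((m - m' : ℤ) : ℝ) := by rw [this]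
          push_cast at h5
          exact_mod_cast h5
        rw [h4] at h3
        push_cast at h3
        have h6 : ((m : ℝ) - m') * γ - ((k m : ℝ) - k m') = (m : ℝ) * γ - k m - (m' * γ - k m') := by
          ring
        rw [h6] at h3
        exact h3
      rcases lt_or_gt_of_ne hne with h | h
      · rw [abs_sub_comm]; exact key m' hm' m hm h
      · exact key m hm m' hm' h
  · push Not at hA
    -- choose the least such d
    have hex : ∃ d : ℕ, 1 ≤ d ∧ ∃ e : ℤ, |d * γ - e| < 1 / (8 * (X : ℝ)) := by
      obtain ⟨d, h1, _, e, h3⟩ := hA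
      exact ⟨d, h1, e, h3⟩
    classical
    let ν := Nat.find hex
    have hν := Nat.find_spec hex
    have hνmin : ∀ d : ℕ, 1 ≤ d → ∀ e : ℤ, |d * γ - e| < 1 / (8 * (X : ℝ)) → ν ≤ d := by
      intro d h1 e h2
      exact Nat.find_min' hex ⟨h1, e, h2⟩
    obtain ⟨hν1, κ, hδ⟩ := hν
    change 1 ≤ ν at hν1
    change |(ν : ℝ) * γ - κ| < _ at hδ
    have hνX : ν ≤ X := by
      obtain ⟨d, h1, h2, e, h3⟩ := hA
      exact (hνmin d h1 e h3).trans h2
    have hνpos : (0 : ℝ) < ν := by exact_mod_cast hν1
    have hνXr : (ν : ℝ) ≤ X := by exact_mod_cast hνX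
    have hcop : IsCoprime (ν : ℤ) κ := by
      rw [Int.isCoprime_iff_gcd_eq_one]
      by_contra hg
      set h := Int.gcd (ν : ℤ) κ with hh
      have hh0 : h ≠ 0 := by
        intro h0
        have := Int.gcd_eq_zero_iff.mp (hh ▸ h0 : Int.gcd (ν : ℤ) κ = 0)
        omega
      have hh2 : 2 ≤ h := by omega
      obtain ⟨a, ha⟩ : (h : ℤ) ∣ (ν : ℤ) := Int.gcd_dvd_left ..
      obtain ⟨b, hb⟩ : (h : ℤ) ∣ κ := Int.gcd_dvd_right ..
      have ha1 : 1 ≤ a := by
        by_contra hlt
        have : a ≤ 0 := by omega
        have : (h : ℤ) * a ≤ 0 := by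
          apply mul_nonpos_of_nonneg_of_nonpos <;> omega
        omega
      have haν : a.toNat < ν := by
        have : a < (ν : ℤ) := by
          rw [ha]; nlinarith
        omega
      have haR : ((a.toNat : ℕ) : ℝ) = (a : ℝ) := by
        have : ((a.toNat : ℕ) : ℤ) = a := by omega
        exact_mod_cast congrArg (fun z : ℤ => (z : ℝ)) this
      have hlt : |((a.toNat : ℕ) : ℝ) * γ - b| < 1 / (8 * (X : ℝ)) := by
        rw [haR]
        have e1 : (ν : ℝ) * γ - κ = h * (a * γ - b) := by
          have e2 : (ν : ℝ) = h * a := by exact_mod_cast congrArg (fun z : ℤ => (z : ℝ)) ha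
          have e3 : (κ : ℝ) = h * b := by exact_mod_cast congrArg (fun z : ℤ => (z : ℝ)) hb
          rw [e2, e3]; ring
        rw [e1, abs_mul] at hδ
        have e4 : |(h : ℝ)| = h := abs_of_nonneg (by positivity)
        rw [e4] at hδ
        have e5 : (2 : ℝ) ≤ h := by exact_mod_cast hh2
        have e6 : 0 ≤ |(a : ℝ) * γ - b| := abs_nonneg _
        nlinarith
      have := hνmin a.toNat (by omega) b hlt
      omega
    -- for `1 ≤ d < ν`, `‖dγ‖ ≥ 7/(8ν)`
    have hsmall : ∀ d e : ℤ, ¬ ((ν : ℤ) ∣ d) → |(d : ℝ)| ≤ X → 7 / (8 * (ν : ℝ)) ≤ |d * γ - e| := by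
      intro d e hnd hdX
      have h1 : (ν : ℤ) * e - κ * d ≠ 0 := by
        intro h0
        have h2 : (ν : ℤ) ∣ κ * d := ⟨e, by linarith⟩
        exact hnd (hcop.dvd_of_dvd_mul_left h2)
      have h2 : (1 : ℝ) ≤ |(ν : ℝ) * e - κ * d| := by
        have : (1 : ℤ) ≤ |(ν : ℤ) * e - κ * d| := Int.one_le_abs h1
        exact_mod_cast this
      have h3 : (ν : ℝ) * e - κ * d = d * (ν * γ - κ) - ν * (d * γ - e) := by ring
      rw [h3] at h2
      have h4 := abs_sub (d * (ν * γ - κ)) (ν * (d * γ - e) : ℝ)
      rw [abs_mul, abs_mul, abs_of_pos hνpos] at h4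
      have h5 : |(d : ℝ)| * |ν * γ - κ| ≤ 1 / 8 := by
        calc |(d : ℝ)| * |ν * γ - κ| ≤ X * (1 / (8 * X)) := by
              apply mul_le_mul hdX hδ.le (abs_nonneg _) hXpos.le
          _ = 1 / 8 := by field_simp
      have h6 : 7 / 8 ≤ ν * |(d : ℝ) * γ - e| := by linarith
      rw [div_le_iff₀ (by positivity)]
      nlinarith
    by_cases hτν : 1 / (4 * (ν : ℝ)) ≤ τ
    · left
      -- split in blocks of length ν
      have hblock : ∀ i ∈ M.image (fun m => ((m - s).toNat / ν)),
          (M.filter (fun m => (m - s).toNat / ν = i)).card ≤ ⌊(44 / 7 : ℝ) * τ * ν⌋₊ := by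
        intro i _
        apply Nat.le_floor
        have h := card_le_of_separated (M.filter (fun m => (m - s).toNat / ν = i))
          (fun m : ℤ => (m : ℝ) * γ - k m) τ (7 / (8 * (ν : ℝ)))
          (by positivity) hτ.le (fun m hm => (hk m (Finset.mem_filter.mp hm).1).le) ?_
        · have h1 : 2 * τ / (7 / (8 * (ν : ℝ))) = 16 / 7 * τ * ν := by
            field_simp; ring
          rw [h1] at h
          have h2 : 1 ≤ 4 * τ * ν := by
            rw [div_le_iff₀ (by positivity)] at hτν
            linarith
          linarith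
        · intro m hm m' hm' hne
          obtain ⟨hm1, hm2⟩ := Finset.mem_filter.mp hm
          obtain ⟨hm1', hm2'⟩ := Finset.mem_filter.mp hm'
          have h3 := hsmall (m - m') (k m - k m') ?_ ?_
          · push_cast at h3
            have h6 : ((m : ℝ) - m') * γ - ((k m : ℝ) - k m')
              = (m : ℝ) * γ - k m - (m' * γ - k m') := by ring
            rw [h6] at h3
            exact h3
          · rintro ⟨c, hc⟩
            have a1 := hM m hm1
            have a2 := hM m' hm1'
            have hd1 := Nat.div_add_mod (m - s).toNat ν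
            have hd2 := Nat.div_add_mod (m' - s).toNat ν
            have hl1 := Nat.mod_lt (m - s).toNat (show 0 < ν by omega)
            have hl2 := Nat.mod_lt (m' - s).toNat (show 0 < ν by omega)
            rw [hm2] at hd1
            rw [hm2'] at hd2
            have hc0 : c ≠ 0 := by
              rintro rfl
              apply hne; linarith
            have habs : |m - m'| < ν := by
              rw [abs_lt]; constructor <;> omega
            rw [hc, abs_mul] at habs
            have : 1 ≤ |c| := Int.one_le_abs hc0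
            have hνabs : |(ν : ℤ)| = ν := abs_of_nonneg (by omega)
            rw [hνabs] at habs
            nlinarith
          · have a1 := hM m hm1
            have a2 := hM m' hm1'
            have : |m - m'| ≤ X := by rw [abs_le]; constructor <;> omega
            have h := (Int.cast_le (R := ℝ)).mpr this
            push_cast at h ⊢
            exact h
      have h1 := Finset.card_le_mul_card_image (f := fun m => ((m - s).toNat / ν)) M
        (⌊(44 / 7 : ℝ) * τ * ν⌋₊) hblock
      have h2 : (M.image (fun m => ((m - s).toNat / ν))).card ≤ X / ν + 1 := by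
        have : M.image (fun m => ((m - s).toNat / ν)) ⊆ Finset.range (X / ν + 1) := by
          intro i hi
          obtain ⟨m, hm, rfl⟩ := Finset.mem_image.mp hi
          rw [Finset.mem_range]
          apply Nat.lt_succ_of_le
          apply Nat.div_le_div_right
          have := hM m hm
          omega
        calc _ ≤ (Finset.range (X / ν + 1)).card := Finset.card_le_card this
          _ = _ := Finset.card_range _
      have h3 : (M.card : ℝ) ≤ (⌊(44 / 7 : ℝ) * τ * ν⌋₊ : ℝ) * ((X / ν : ℕ) + 1) := by
        have : M.card ≤ ⌊(44 / 7 : ℝ) * τ * ν⌋₊ * (X / ν + 1) :=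
          h1.trans (Nat.mul_le_mul_left _ h2)
        exact_mod_cast this
      have h4 : (⌊(44 / 7 : ℝ) * τ * ν⌋₊ : ℝ) ≤ (44 / 7 : ℝ) * τ * ν := Nat.floor_le (by positivity)
      have h5 : ((X / ν : ℕ) : ℝ) ≤ X / ν := Nat.cast_div_le
      have h6 : (1 : ℝ) ≤ X / ν := by rw [le_div_iff₀ hνpos]; linarith
      calc (M.card : ℝ) ≤ (⌊(44 / 7 : ℝ) * τ * ν⌋₊ : ℝ) * ((X / ν : ℕ) + 1) := h3
        _ ≤ ((44 / 7 : ℝ) * τ * ν) * (2 * (X / ν)) := by
            apply mul_le_mul h4 _ (by positivity) (by positivity)
            linarith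
        _ = 88 / 7 * X * τ := by field_simp; ring
        _ ≤ 16 * X * τ + 1 := by
            have : 0 ≤ X * τ := by positivity
            nlinarith
    · push Not at hτν
      right
      -- all elements are congruent mod ν
      have hcongr : ∀ m ∈ M, ∀ m' ∈ M, (ν : ℤ) ∣ (m - m') := by
        intro m hm m' hm'
        by_contra hnd
        have a1 := hM m hm
        have a2 := hM m' hm'
        have hX' : |((m - m' : ℤ) : ℝ)| ≤ X := by
          have : |m - m'| ≤ X := by rw [abs_le]; constructor <;> omega
          have h := (Int.cast_le (R := ℝ)).mpr this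
          push_cast at h ⊢
          exact h
        have h3 := hsmall (m - m') (k m - k m') hnd hX'
        push_cast at h3
        have h6 : ((m : ℝ) - m') * γ - ((k m : ℝ) - k m')
              = (m * γ - k m) - (m' * γ - k m') := by ring
        rw [h6] at h3
        have h7 := abs_sub ((m : ℝ) * γ - k m) (m' * γ - k m')
        have h8 := hk m hm
        have h9 := hk m' hm'
        have h10 : 7 / (8 * (ν : ℝ)) < 2 * (1 / (4 * (ν : ℝ))) := by linarith
        have h11 : 7 / (8 * (ν : ℝ)) = 7 / 8 * (1 / ν) := by field_simp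
        have h12 : 2 * (1 / (4 * (ν : ℝ))) = 1 / 2 * (1 / ν) := by field_simp; norm_num
        rw [h11, h12] at h10
        have : 0 < 1 / (ν : ℝ) := by positivity
        linarith
      refine ⟨ν, κ, hν1, hνX, hcop, hδ, hτν, ?_, ?_⟩
      · apply card_le_of_int_separated M s X ν hνpos hM
        intro m hm m' hm' hne
        obtain ⟨c, hc⟩ := hcongr m hm m' hm'
        have hc0 : c ≠ 0 := by
          rintro rfl
          apply hne; linarith
        have h1 : 1 ≤ |c| := Int.one_le_abs hc0
        have h2 : (ν : ℤ) ≤ |m - m'| := by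
          rw [hc, abs_mul, abs_of_nonneg (by omega : (0 : ℤ) ≤ ν)]
          nlinarith
        exact_mod_cast h2
      · rcases eq_or_lt_of_le (abs_nonneg ((ν : ℝ) * γ - κ)) with h0 | hpos
        · rw [← h0]; simp; positivity
        · have h := card_le_of_separated M (fun m : ℤ => (m : ℝ) * γ - k m) τ |(ν : ℝ) * γ - κ|
            hpos hτ.le (fun m hm => (hk m hm).le) ?_
          · rw [← sub_le_iff_le_add, le_div_iff₀ hpos] at h
            exact h
          · intro m hm m' hm' hne
            obtain ⟨c, hc⟩ := hcongr m hm m' hm'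
            have hc0 : c ≠ 0 := by
              rintro rfl
              apply hne; linarith
            have h1 : (1 : ℝ) ≤ |(c : ℝ)| := by exact_mod_cast Int.one_le_abs hc0
            -- k m - k m' = c κ
            have hcm : (m : ℝ) - m' = ν * c := by exact_mod_cast congrArg (fun z : ℤ => (z : ℝ)) hc
            have a1 := hM m hm
            have a2 := hM m' hm'
            have hX' : |(m : ℝ) - m'| ≤ X := by
              have : |m - m'| ≤ X := by rw [abs_le]; constructor <;> omega
              exact_mod_cast this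
            have hD : (ν : ℤ) * (k m - k m') - κ * (m - m') = 0 := by
              have hlt : |(ν : ℝ) * ((k m : ℝ) - k m') - κ * ((m : ℝ) - m')| < 1 := by
                have e1 : (ν : ℝ) * ((k m : ℝ) - k m') - κ * ((m : ℝ) - m')
                  = ((m : ℝ) - m') * (ν * γ - κ) - ν * ((m * γ - k m) - (m' * γ - k m')) := by ring
                rw [e1]
                have e2 := abs_sub (((m : ℝ) - m') * (ν * γ - κ))
                  (ν * ((m * γ - k m) - (m' * γ - k m')))
                rw [abs_mul, abs_mul, abs_of_pos hνpos] at e2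
                have e3 : |(m : ℝ) - m'| * |ν * γ - κ| ≤ 1 / 8 := by
                  calc |(m : ℝ) - m'| * |ν * γ - κ| ≤ X * (1 / (8 * X)) := by
                        apply mul_le_mul hX' hδ.le (abs_nonneg _) hXpos.le
                    _ = 1 / 8 := by field_simp
                have e4 := abs_sub ((m : ℝ) * γ - k m) (m' * γ - k m')
                have e5 := hk m hm
                have e6 := hk m' hm'
                have e7 : ν * |((m : ℝ) * γ - k m) - (m' * γ - k m')| ≤ 1 / 2 := by
                  calc ν * |((m : ℝ) * γ - k m) - (m' * γ - k m')|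
                      ≤ ν * (2 * (1 / (4 * ν))) := by
                        apply mul_le_mul_of_nonneg_left _ hνpos.le
                        linarith
                    _ = 1 / 2 := by field_simp; norm_num
                linarith
              have : |(ν : ℤ) * (k m - k m') - κ * (m - m')| < 1 := by exact_mod_cast hlt
              exact Int.abs_lt_one_iff.mp this
            have hkm : (k m : ℝ) - k m' = c * κ := by
              have e1 : (ν : ℤ) * (k m - k m') = ν * (c * κ) := by
                rw [hc] at hD; linarith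
              have e2 : k m - k m' = c * κ := by
                apply mul_left_cancel₀ _ e1
                omega
              exact_mod_cast congrArg (fun z : ℤ => (z : ℝ)) e2
            have e8 : (m : ℝ) * γ - k m - (m' * γ - k m') = c * (ν * γ - κ) := by
              have : (m : ℝ) * γ - k m - (m' * γ - k m')
                = ((m : ℝ) - m') * γ - ((k m : ℝ) - k m') := by ring
              rw [this, hcm, hkm]; ring
            rw [e8, abs_mul]
            nlinarith [abs_nonneg ((ν : ℝ) * γ - κ)]

end Vale.Agent.H4.IDS
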