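import Vale.Agent.H4.IDS.Final

namespace Vale.Agent.H4.IDS

open Finset MeasureTheory

/-- average of `F` -/
lemma sum_F_le (N : ℕ) : ∑ q ∈ Finset.Icc 1 N, F q ≤ 3 * N := by
  classical
  have h1 : ∑ q ∈ Finset.Icc 1 N, F q = ∑ d ∈ Finset.Icc 1 N, (1 / √(d : ℝ)) * ((N / d : ℕ) : ℝ) := by
    have e1 : ∀ q ∈ Finset.Icc 1 N, F q = ∑ d ∈ Finset.Icc 1 N, if d ∣ q then 1 / √(d : ℝ) else 0 := by
      intro q hq
      rw [Finset.mem_Icc] at hq
      rw [← Finset.sum_filter]
      unfold F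
      apply Finset.sum_congr _ (fun _ _ => rfl)
      ext d
      rw [Nat.mem_divisors, Finset.mem_filter, Finset.mem_Icc]
      constructor
      · rintro ⟨h1, h2⟩
        exact ⟨⟨Nat.pos_of_dvd_of_pos h1 (by omega), (Nat.le_of_dvd (by omega) h1).trans hq.2⟩, h1⟩
      · rintro ⟨_, h2⟩
        exact ⟨h2, by omega⟩
    rw [Finset.sum_congr rfl e1, Finset.sum_comm]
    apply Finset.sum_congr rfl
    intro d hd
    rw [← Finset.sum_filter, Finset.sum_const, nsmul_eq_mul, mul_comm]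
    congr 2
    have : (Finset.Icc 1 N).filter (fun q => d ∣ q) = (Finset.Ioc 0 N).filter (fun q => d ∣ q) := rfl
    rw [this, Nat.Ioc_filter_dvd_card_eq_div]
  rw [h1]
  have h2 : ∀ d ∈ Finset.Icc 1 N, (1 / √(d : ℝ)) * ((N / d : ℕ) : ℝ) ≤ N * (1 / (d * √(d : ℝ))) := by
    intro d hd
    rw [Finset.mem_Icc] at hd
    have hd0 : (0 : ℝ) < d := by exact_mod_cast (by omega : 0 < d)
    have h3 : ((N / d : ℕ) : ℝ) ≤ N / d := Nat.cast_div_le
    calc (1 / √(d : ℝ)) * ((N / d : ℕ) : ℝ) ≤ (1 / √(d : ℝ)) * (N / d) := by gcongr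
      _ = _ := by ring
  refine (Finset.sum_le_sum h2).trans ?_
  rw [← Finset.mul_sum, mul_comm]
  apply mul_le_mul_of_nonneg_right _ (Nat.cast_nonneg N)
  -- ∑ d^{-3/2} ≤ 3
  have h3 : ∀ n : ℕ, ∑ d ∈ Finset.Icc 1 (n + 1), 1 / ((d : ℝ) * √(d : ℝ)) ≤ 3 - 2 / √((n : ℝ) + 1) := by
    intro n
    induction n with
    | zero => norm_num
    | succ n ih =>
      rw [Finset.sum_Icc_succ_top (by omega)]
      push_cast at ih ⊢
      have hx : (0 : ℝ) < (n : ℝ) + 1 := by positivity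
      set x : ℝ := √((n : ℝ) + 1) with hxdef
      set y : ℝ := √((n : ℝ) + 1 + 1) with hydef
      have hx0 : 0 < x := Real.sqrt_pos.mpr hx
      have hy0 : 0 < y := Real.sqrt_pos.mpr (by linarith)
      have hx2 : x ^ 2 = (n : ℝ) + 1 := Real.sq_sqrt hx.le
      have hy2 : y ^ 2 = (n : ℝ) + 1 + 1 := Real.sq_sqrt (by linarith)
      have hxy : x ≤ y := Real.sqrt_le_sqrt (by linarith)
      have key : 1 / (((n : ℝ) + 1 + 1) * y) ≤ 2 / x - 2 / y := by
        have e1 : 2 / x - 2 / y = 2 * (y - x) / (x * y) := by field_simp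
        have e2 : y - x = 1 / (y + x) := by
          field_simp
          nlinarith
        rw [e1, e2, ← hy2]
        rw [div_le_div_iff₀ (by positivity) (by positivity)]
        have e3 : 2 * (1 / (y + x)) * (y ^ 2 * y) = 2 * y ^ 3 / (y + x) := by ring
        rw [e3, le_div_iff₀ (by positivity)]
        nlinarith [mul_pos hx0 hy0, sq_nonneg (y - x), mul_nonneg (mul_pos hy0 hy0).le (sub_nonneg.mpr hxy), mul_nonneg (mul_pos hx0 hy0).le (sub_nonneg.mpr hxy)]
      linarith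
  rcases N with _ | n
  · simp
  · refine (h3 n).trans ?_
    have : 0 ≤ 2 / √((n : ℝ) + 1) := by positivity
    linarith

/-- few integers have large `F` -/
lemma card_F_large (N : ℕ) (Φ : ℝ) (hΦ : 0 < Φ) :
    (((Finset.Icc 1 N).filter (fun q => Φ < F q)).card : ℝ) ≤ 3 * N / Φ := by
  classical
  rw [le_div_iff₀ hΦ]
  have h1 : ∑ q ∈ (Finset.Icc 1 N).filter (fun q => Φ < F q), Φ ≤ ∑ q ∈ Finset.Icc 1 N, F q := by
    refine (Finset.sum_le_sum (fun q hq => (Finset.mem_filter.mp hq).2.le)).trans ?_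
    apply Finset.sum_le_sum_of_subset_of_nonneg (Finset.filter_subset _ _)
    intro q _ _
    exact Finset.sum_nonneg (fun d _ => by positivity)
  rw [Finset.sum_const, nsmul_eq_mul] at h1
  exact h1.trans (sum_F_le N)

/-- Abel summation: a positive proportion of the indices carries a positive proportion of the sum
of a non-increasing function. -/
lemma abel (h : ℕ → ℝ) (hanti : ∀ m n, 1 ≤ m → m ≤ n → h n ≤ h m)
    (S : Set ℕ) [DecidablePred (fun q => q ∈ S)] (c : ℝ) (N₀ : ℕ) (hN₀ : 1 ≤ N₀)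
    (hS : ∀ N, N₀ ≤ N → c * N ≤ (((Finset.Icc 1 N).filter (fun q => q ∈ S)).card : ℝ)) (N : ℕ)
    (hN : N₀ ≤ N) (hc0 : 0 ≤ c) :
    c * ∑ q ∈ Finset.Ioc N₀ N, h q + ((((Finset.Icc 1 N).filter (fun q => q ∈ S)).card : ℝ) -
      c * (N - N₀)) * h N ≤ ∑ q ∈ (Finset.Icc 1 N).filter (fun q => q ∈ S), h q := by
  induction N, hN using Nat.le_induction with
  | base =>
    simp only [Finset.Ioc_self, Finset.sum_empty, mul_zero, sub_self, sub_zero, zero_add]
    rw [← nsmul_eq_mul]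
    apply Finset.card_nsmul_le_sum
    intro q hq
    obtain ⟨h1, _⟩ := Finset.mem_filter.mp hq
    rw [Finset.mem_Icc] at h1
    exact hanti q N₀ h1.1 h1.2
  | succ N hN ih =>
    have e1 : Finset.Icc 1 (N + 1) = insert (N + 1) (Finset.Icc 1 N) := by
      ext q; simp only [Finset.mem_Icc, Finset.mem_insert]; omega
    have e2 : ∑ q ∈ Finset.Ioc N₀ (N + 1), h q = ∑ q ∈ Finset.Ioc N₀ N, h q + h (N + 1) := by
      have : Finset.Ioc N₀ (N + 1) = insert (N + 1) (Finset.Ioc N₀ N) := by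
        ext q; simp only [Finset.mem_Ioc, Finset.mem_insert]; omega
      rw [this, Finset.sum_insert (by simp), add_comm]
    have hcoef : 0 ≤ (((Finset.Icc 1 N).filter (fun q => q ∈ S)).card : ℝ) - c * (N - N₀) := by
      have h1 := hS N hN
      have : 0 ≤ c * N₀ := by positivity
      linarith
    have hmono := hanti N (N + 1) (by omega) (by omega)
    have h3 := mul_le_mul_of_nonneg_left hmono hcoef
    by_cases hmem : N + 1 ∈ S
    · rw [e1, Finset.filter_insert, if_pos hmem, Finset.card_insert_of_notMem (by simp),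
        Finset.sum_insert (by simp), e2]
      push_cast
      nlinarith
    · rw [e1, Finset.filter_insert, if_neg hmem, e2]
      push_cast
      nlinarith

/-- truncation at `1/q` keeps divergence for non-increasing functions -/
lemma not_summable_min (f : ℕ → ℝ) (hf0 : ∀ q, 0 ≤ f q)
    (hanti : ∀ m n, 1 ≤ m → m ≤ n → f n ≤ f m) (hdiv : ¬ Summable f) :
    ¬ Summable (fun q : ℕ => min (f q) (1 / (q : ℝ))) := by
  intro hs
  apply hdiv
  set h : ℕ → ℝ := fun q => min (f q) (1 / (q : ℝ)) with hh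
  have hnn : ∀ q, 0 ≤ h q := fun q => le_min (hf0 q) (by positivity)
  have hanti' : ∀ m n, 1 ≤ m → m ≤ n → h n ≤ h m := by
    intro m n hm hmn
    apply min_le_min (hanti m n hm hmn)
    have : (0 : ℝ) < m := by exact_mod_cast hm
    apply one_div_le_one_div_of_le this
    exact_mod_cast hmn
  -- eventually h q < 1/q
  have hcauchy := hs.hasSum.tendsto_sum_nat
  obtain ⟨M, hM⟩ : ∃ M : ℕ, ∀ n ≥ M, ∑ q ∈ Finset.range n, h q > (∑' q, h q) - 1 / 4 := by
    have := hcauchy.eventually (lt_mem_nhds (show (∑' q, h q) - 1 / 4 < ∑' q, h q by linarith))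
    rw [Filter.eventually_atTop] at this
    exact this
  have hsmall : ∀ q : ℕ, 2 * M + 2 ≤ q → h q < 1 / (q : ℝ) := by
    intro q hq
    have hq0 : (0 : ℝ) < q := by exact_mod_cast (by omega : 0 < q)
    have h1 : ∑ i ∈ Finset.range (q + 1), h i ≤ ∑' i, h i := hs.sum_le_tsum _ (fun i _ => hnn i)
    have h2 := hM (q / 2 + 1) (by omega)
    have h3 : ∑ i ∈ Finset.range (q + 1), h i = ∑ i ∈ Finset.range (q / 2 + 1), h i +
        ∑ i ∈ Finset.Ico (q / 2 + 1) (q + 1), h i := by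
      rw [Finset.sum_range_add_sum_Ico _ (by omega)]
    have h4 : ((Finset.Ico (q / 2 + 1) (q + 1)).card : ℝ) * h q ≤
        ∑ i ∈ Finset.Ico (q / 2 + 1) (q + 1), h i := by
      rw [← nsmul_eq_mul]
      apply Finset.card_nsmul_le_sum
      intro i hi
      rw [Finset.mem_Ico] at hi
      exact hanti' i q (by omega) (by omega)
    have h5 : (q : ℝ) / 2 ≤ ((Finset.Ico (q / 2 + 1) (q + 1)).card : ℝ) := by
      rw [Nat.card_Ico]
      have : q ≤ 2 * (q + 1 - (q / 2 + 1)) := by omega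
      have h6 : (q : ℝ) ≤ 2 * ((q + 1 - (q / 2 + 1) : ℕ) : ℝ) := by exact_mod_cast this
      linarith
    have h6 : (q : ℝ) / 2 * h q < 1 / 4 := by
      have := mul_le_mul_of_nonneg_right h5 (hnn q)
      linarith
    rw [lt_div_iff₀ hq0]
    linarith
  have heq : ∀ q : ℕ, 2 * M + 2 ≤ q → h q = f q := by
    intro q hq
    have h1 := hsmall q hq
    simp only [hh] at h1 ⊢
    rcases min_choice (f q) (1 / (q : ℝ)) with h2 | h2
    · exact h2
    · rw [h2] at h1; exact absurd h1 (lt_irrefl _)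
  rw [← summable_nat_add_iff (2 * M + 2)] at hs ⊢
  refine hs.congr ?_
  intro q
  exact heq _ (by omega)

/-- weighted divergence for functions that dominate a non-increasing function on a set of positive
lower density. -/
lemma not_summable_density (f ψ : ℕ → ℝ) (hf0 : ∀ q, 0 ≤ f q) (hψ0 : ∀ q, 0 ≤ ψ q)
    (hanti : ∀ m n, 1 ≤ m → m ≤ n → f n ≤ f m) (hdiv : ¬ Summable f) (S : Set ℕ)
    (hdens : ∃ c : ℝ, 0 < c ∧ ∃ N₀ : ℕ, ∀ N ≥ N₀,
      c * N ≤ (((Set.Icc 1 N) ∩ S).ncard : ℝ)) (hψ : ∀ q ∈ S, f q ≤ ψ q) :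
    ¬ Summable (fun q : ℕ => min (ψ q) (1 / (q : ℝ)) / F q ^ 4) := by
  classical
  intro hs
  obtain ⟨c, hc, N₀, hN₀⟩ := hdens
  apply not_summable_min f hf0 hanti hdiv
  set h : ℕ → ℝ := fun q => min (f q) (1 / (q : ℝ)) with hh
  have hnn : ∀ q, 0 ≤ h q := fun q => le_min (hf0 q) (by positivity)
  have hanti' : ∀ m n, 1 ≤ m → m ≤ n → h n ≤ h m := by
    intro m n hm hmn
    apply min_le_min (hanti m n hm hmn)
    have : (0 : ℝ) < m := by exact_mod_cast hm
    apply one_div_le_one_div_of_le this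
    exact_mod_cast hmn
  set Φ : ℝ := 6 / c with hΦ
  have hΦpos : 0 < Φ := by positivity
  set S' : Set ℕ := {q | q ∈ S ∧ F q ≤ Φ} with hS'
  set N₁ := max N₀ 1 with hN₁
  have hS'dens : ∀ N, N₁ ≤ N → c / 2 * N ≤ (((Finset.Icc 1 N).filter (fun q => q ∈ S')).card : ℝ) := by
    intro N hN
    have h1 := hN₀ N (le_trans (le_max_left _ _) hN)
    have e1 : ((Set.Icc 1 N) ∩ S).ncard = ((Finset.Icc 1 N).filter (fun q => q ∈ S)).card := by
      rw [← Set.ncard_coe_finset]
      congr 1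
      ext q; simp
    rw [e1] at h1
    have h2 := card_F_large N Φ hΦpos
    have h3 : ((Finset.Icc 1 N).filter (fun q => q ∈ S)).card ≤
        ((Finset.Icc 1 N).filter (fun q => q ∈ S')).card +
        ((Finset.Icc 1 N).filter (fun q => Φ < F q)).card := by
      refine le_trans (Finset.card_le_card ?_) (Finset.card_union_le _ _)
      intro q hq
      obtain ⟨h4, h5⟩ := Finset.mem_filter.mp hq
      rw [Finset.mem_union]
      by_cases h6 : F q ≤ Φ
      · left; exact Finset.mem_filter.mpr ⟨h4, h5, h6⟩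
      · right; exact Finset.mem_filter.mpr ⟨h4, not_le.mp h6⟩
    have h4 : (((Finset.Icc 1 N).filter (fun q => q ∈ S)).card : ℝ) ≤
        (((Finset.Icc 1 N).filter (fun q => q ∈ S')).card : ℝ) +
        (((Finset.Icc 1 N).filter (fun q => Φ < F q)).card : ℝ) := by exact_mod_cast h3
    have h5 : 3 * (N : ℝ) / Φ = c / 2 * N := by rw [hΦ]; field_simp; ring
    rw [h5] at h2
    linarith
  -- bounded partial sums
  have hbound : ∀ N, N₁ ≤ N → ∑ q ∈ Finset.Ioc N₁ N, h q ≤
      2 / c * (Φ ^ 4 * ∑' q, min (ψ q) (1 / (q : ℝ)) / F q ^ 4) := by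
    intro N hN
    have h1 := abel h hanti' S' (c / 2) N₁ (le_max_right _ _) hS'dens N hN (by positivity)
    have h2 : 0 ≤ ((((Finset.Icc 1 N).filter (fun q => q ∈ S')).card : ℝ) -
      c / 2 * (N - N₁)) * h N := by
      apply mul_nonneg _ (hnn N)
      have h3 := hS'dens N hN
      have : 0 ≤ c / 2 * N₁ := by positivity
      linarith
    have h3 : ∑ q ∈ (Finset.Icc 1 N).filter (fun q => q ∈ S'), h q ≤
        Φ ^ 4 * ∑ q ∈ (Finset.Icc 1 N).filter (fun q => q ∈ S'),
          min (ψ q) (1 / (q : ℝ)) / F q ^ 4 := by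
      rw [Finset.mul_sum]
      apply Finset.sum_le_sum
      intro q hq
      obtain ⟨h4, h5⟩ := Finset.mem_filter.mp hq
      rw [Finset.mem_Icc] at h4
      obtain ⟨h6, h7⟩ := h5
      have hF1 := one_le_F h4.1
      have hF0 : 0 < F q := by linarith
      have h8 : h q ≤ min (ψ q) (1 / (q : ℝ)) := min_le_min (hψ q h6) le_rfl
      have h9 : 0 ≤ min (ψ q) (1 / (q : ℝ)) := le_min (hψ0 q) (by positivity)
      calc h q ≤ min (ψ q) (1 / (q : ℝ)) := h8
        _ = F q ^ 4 * (min (ψ q) (1 / (q : ℝ)) / F q ^ 4) := by field_simp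
        _ ≤ Φ ^ 4 * (min (ψ q) (1 / (q : ℝ)) / F q ^ 4) := by gcongr
    have h4 : ∑ q ∈ (Finset.Icc 1 N).filter (fun q => q ∈ S'),
          min (ψ q) (1 / (q : ℝ)) / F q ^ 4 ≤ ∑' q, min (ψ q) (1 / (q : ℝ)) / F q ^ 4 := by
      apply hs.sum_le_tsum
      intro q _
      have h9 : 0 ≤ min (ψ q) (1 / (q : ℝ)) := le_min (hψ0 q) (by positivity)
      have : 0 ≤ F q := Finset.sum_nonneg (fun d _ => by positivity)
      positivity
    have h5 : c / 2 * ∑ q ∈ Finset.Ioc N₁ N, h q ≤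
        Φ ^ 4 * ∑' q, min (ψ q) (1 / (q : ℝ)) / F q ^ 4 := by
      have h6 : Φ ^ 4 * ∑ q ∈ (Finset.Icc 1 N).filter (fun q => q ∈ S'),
          min (ψ q) (1 / (q : ℝ)) / F q ^ 4 ≤ Φ ^ 4 * ∑' q, min (ψ q) (1 / (q : ℝ)) / F q ^ 4 := by
        gcongr
      linarith
    rw [div_mul_eq_mul_div, le_div_iff₀ hc]
    linarith
  apply summable_of_sum_range_le (c := ∑ q ∈ Finset.range (N₁ + 1), h q +
    2 / c * (Φ ^ 4 * ∑' q, min (ψ q) (1 / (q : ℝ)) / F q ^ 4)) hnn
  intro n
  have h1 : ∑ q ∈ Finset.range n, h q ≤ ∑ q ∈ Finset.range (max n N₁ + 1), h q := by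
    apply Finset.sum_le_sum_of_subset_of_nonneg
    · intro q hq
      rw [Finset.mem_range] at hq ⊢
      have := le_max_left n N₁
      omega
    · intro q _ _; exact hnn q
  refine h1.trans ?_
  have h2 : ∑ q ∈ Finset.range (max n N₁ + 1), h q = ∑ q ∈ Finset.range (N₁ + 1), h q +
      ∑ q ∈ Finset.Ioc N₁ (max n N₁), h q := by
    have e : Finset.Ioc N₁ (max n N₁) = Finset.Ico (N₁ + 1) (max n N₁ + 1) := by
      ext q; simp only [Finset.mem_Ioc, Finset.mem_Ico]; omega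
    rw [e, Finset.sum_range_add_sum_Ico]
    have := le_max_right n N₁
    omega
  rw [h2]
  have := hbound (max n N₁) (le_max_right _ _)
  linarith

end Vale.Agent.H4.IDS
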