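import Vale.Agent.H4.IDS.Total

namespace Vale.Agent.H4.IDS

open Finset MeasureTheory

/-- the interval around the centre `(a+γ)/q` -/
noncomputable def Bl (γ : ℝ) (ψ : ℕ → ℝ) (q a : ℕ) : Set ℝ :=
  Metric.ball (((a : ℝ) + γ) / q) (ψ q / q)

lemma Bl_vol (γ : ℝ) (ψ : ℕ → ℝ) (hψ0 : ∀ q, 0 ≤ ψ q) (q a : ℕ) :
    volume.real (Bl γ ψ q a) = 2 * (ψ q / q) := by
  unfold Bl
  have : 0 ≤ ψ q / q := by have := hψ0 q; positivity
  rw [Measure.real, Real.volume_ball, ENNReal.toReal_ofReal (by positivity)]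

lemma Bl_ne_top (γ : ℝ) (ψ : ℕ → ℝ) (q a : ℕ) : volume (Bl γ ψ q a) ≠ ⊤ := by
  unfold Bl
  rw [Real.volume_ball]
  exact ENNReal.ofReal_ne_top

lemma Bl_meas (γ : ℝ) (ψ : ℕ → ℝ) (q a : ℕ) : MeasurableSet (Bl γ ψ q a) :=
  measurableSet_ball

open Classical in
lemma Bl_inter_le (γ : ℝ) (ψ : ℕ → ℝ) (hψ0 : ∀ q, 0 ≤ ψ q) (q a r b : ℕ) :
    volume.real (Bl γ ψ q a ∩ Bl γ ψ r b) ≤
      (if Coin γ ψ q a r b then 2 * min (ψ q / q) (ψ r / r) else 0) := by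
  split_ifs with h
  · have h1 : volume.real (Bl γ ψ q a ∩ Bl γ ψ r b) ≤ volume.real (Bl γ ψ q a) :=
      measureReal_mono Set.inter_subset_left (Bl_ne_top γ ψ q a)
    have h2 : volume.real (Bl γ ψ q a ∩ Bl γ ψ r b) ≤ volume.real (Bl γ ψ r b) :=
      measureReal_mono Set.inter_subset_right (Bl_ne_top γ ψ r b)
    rw [Bl_vol γ ψ hψ0] at h1 h2
    rcases min_cases (ψ q / q) (ψ r / r) with ⟨h3, _⟩ | ⟨h3, _⟩ <;> rw [h3] <;> assumption
  · have : Bl γ ψ q a ∩ Bl γ ψ r b = ∅ := by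
      rw [Set.eq_empty_iff_forall_notMem]
      rintro x ⟨h1, h2⟩
      apply h
      unfold Bl at h1 h2
      rw [Metric.mem_ball, Real.dist_eq] at h1 h2
      unfold Coin
      have e : ((a : ℝ) + γ) / q - ((b : ℝ) + γ) / r
        = (x - ((b : ℝ) + γ) / r) - (x - ((a : ℝ) + γ) / q) := by ring
      rw [e]
      have := abs_sub (x - ((b : ℝ) + γ) / r) (x - ((a : ℝ) + γ) / q)
      linarith
    rw [this]; simp

open Classical in
/-- the good numerators -/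
noncomputable def Gd (γ K : ℝ) (q : ℕ) : Finset ℕ :=
  (Finset.range q).filter (fun a => ¬ BadNum γ K q a)

/-- pair energy -/
noncomputable def P (γ K : ℝ) (ψ : ℕ → ℝ) (q r : ℕ) : ℝ :=
  ∑ a ∈ Gd γ K q, ∑ b ∈ Gd γ K r, volume.real (Bl γ ψ q a ∩ Bl γ ψ r b)

lemma P_symm (γ K : ℝ) (ψ : ℕ → ℝ) (q r : ℕ) : P γ K ψ q r = P γ K ψ r q := by
  unfold P
  rw [Finset.sum_comm]
  apply Finset.sum_congr rfl; intro b _
  apply Finset.sum_congr rfl; intro a _
  rw [Set.inter_comm]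

lemma P_le (γ K : ℝ) (ψ : ℕ → ℝ) (hψ0 : ∀ q, 0 ≤ ψ q) (q r : ℕ) :
    P γ K ψ q r ≤ 2 * min (ψ q / q) (ψ r / r) * Cs γ K ψ q r := by
  classical
  unfold P
  rw [← Finset.sum_product']
  have h1 : ∀ p ∈ Gd γ K q ×ˢ Gd γ K r, volume.real (Bl γ ψ q p.1 ∩ Bl γ ψ r p.2) ≤
      (if Coin γ ψ q p.1 r p.2 then 2 * min (ψ q / q) (ψ r / r) else 0) :=
    fun p _ => Bl_inter_le γ ψ hψ0 q p.1 r p.2
  refine (Finset.sum_le_sum h1).trans ?_
  rw [← Finset.sum_filter, Finset.sum_const, nsmul_eq_mul, mul_comm]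
  have hmin : 0 ≤ 2 * min (ψ q / q) (ψ r / r) := by
    have := hψ0 q; have := hψ0 r; positivity
  apply mul_le_mul_of_nonneg_left _ hmin
  unfold Cs
  have : (Gd γ K q ×ˢ Gd γ K r).filter (fun p : ℕ × ℕ => Coin γ ψ q p.1 r p.2) ⊆
      ((Finset.range q) ×ˢ (Finset.range r)).filter
      (fun p : ℕ × ℕ => Coin γ ψ q p.1 r p.2 ∧ ¬ BadNum γ K r p.2) := by
    intro p hp
    obtain ⟨h2, h3⟩ := Finset.mem_filter.mp hp
    rw [Finset.mem_product] at h2
    unfold Gd at h2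
    rw [Finset.mem_filter, Finset.mem_filter] at h2
    rw [Finset.mem_filter, Finset.mem_product]
    exact ⟨⟨h2.1.1, h2.2.1⟩, h3, h2.2.2⟩
  exact_mod_cast Finset.card_le_card this

lemma P_diag (γ K : ℝ) (ψ : ℕ → ℝ) (hψ0 : ∀ q, 0 ≤ ψ q)
    (hψ1 : ∀ q : ℕ, 1 ≤ q → ψ q / q ≤ 1 / (16 * (q : ℝ) ^ 2)) (q : ℕ) (hq : 1 ≤ q) :
    P γ K ψ q q ≤ 2 * ψ q := by
  classical
  have hqR : (0 : ℝ) < q := by exact_mod_cast hq
  have hq1 : (1 : ℝ) ≤ q := by exact_mod_cast hq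
  unfold P
  have h1 : ∀ a ∈ Gd γ K q, ∑ b ∈ Gd γ K q, volume.real (Bl γ ψ q a ∩ Bl γ ψ q b)
      ≤ 2 * (ψ q / q) := by
    intro a ha
    rw [Finset.sum_eq_single a]
    · rw [Set.inter_self, Bl_vol γ ψ hψ0]
    · intro b hb hne
      have h2 := Bl_inter_le γ ψ hψ0 q a q b
      rw [if_neg] at h2
      · exact le_antisymm h2 measureReal_nonneg
      · unfold Coin
        push Not
        have e : ((a : ℝ) + γ) / q - ((b : ℝ) + γ) / q = ((a : ℝ) - b) / q := by ring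
        rw [e, abs_div, abs_of_pos hqR, le_div_iff₀ hqR]
        have h3 : (1 : ℝ) ≤ |(a : ℝ) - b| := by
          have : (1 : ℤ) ≤ |(a : ℤ) - b| := by
            apply Int.one_le_abs
            intro h0; apply hne; omega
          exact_mod_cast this
        have h4 := hψ1 q hq
        have h5 : (ψ q / q + ψ q / q) * q ≤ 1 := by
          calc (ψ q / q + ψ q / q) * q ≤ (1 / (16 * (q : ℝ) ^ 2) + 1 / (16 * (q : ℝ) ^ 2)) * q := by
                gcongr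
            _ = 1 / (8 * q) := by field_simp; norm_num
            _ ≤ 1 := by
                rw [div_le_one (by positivity)]; linarith
        linarith
    · intro h; exact absurd ha h
  refine (Finset.sum_le_card_nsmul _ _ _ h1).trans ?_
  rw [nsmul_eq_mul]
  have h2 : ((Gd γ K q).card : ℝ) ≤ q := by
    have : (Gd γ K q).card ≤ (Finset.range q).card := Finset.card_le_card (Finset.filter_subset _ _)
    rw [Finset.card_range] at this
    exact_mod_cast this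
  have h3 := hψ0 q
  calc ((Gd γ K q).card : ℝ) * (2 * (ψ q / q)) ≤ q * (2 * (ψ q / q)) := by gcongr
    _ = 2 * ψ q := by field_simp

/-- the pointwise estimate for a pair `q < r` -/
lemma P_pair (γ K : ℝ) (ψ : ℕ → ℝ) (hψ0 : ∀ q, 0 ≤ ψ q)
    (hψ1 : ∀ q : ℕ, 1 ≤ q → ψ q / q ≤ 1 / (16 * (q : ℝ) ^ 2)) (q r : ℕ) (hq : 1 ≤ q) (hqr : q < r) :
    P γ K ψ q r ≤ 8 * ψ q * ψ r +
      (if Nat.gcd q r * q ≤ r then 2 * (ψ r / r) * (Nat.gcd q r : ℝ) else 0) +
      (if r < Nat.gcd q r * q ∧ ψ q / q ≤ 1 / (16 * (r : ℝ) ^ 2) then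
        2 * (ψ r / r) * (Cs γ K ψ q r : ℝ) else 0) +
      (if r < Nat.gcd q r * q ∧ 1 / (16 * (r : ℝ) ^ 2) < ψ q / q then
        (1 / (8 * (r : ℝ) ^ 2)) * (Cs γ K ψ q r : ℝ) else 0) := by
  have hqR : (0 : ℝ) < q := by exact_mod_cast hq
  have hrR : (0 : ℝ) < r := by exact_mod_cast (by omega : 0 < r)
  have hψq := hψ0 q
  have hψr := hψ0 r
  have hP := P_le γ K ψ hψ0 q r
  have hC0 : (0 : ℝ) ≤ Cs γ K ψ q r := Nat.cast_nonneg _
  by_cases hfar : Nat.gcd q r * q ≤ r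
  · rw [if_pos hfar, if_neg (by omega), if_neg (by omega)]
    set g := Nat.gcd q r with hg
    have hg0 : 0 < g := Nat.gcd_pos_of_pos_left _ (by omega)
    obtain ⟨q', hqq⟩ : g ∣ q := Nat.gcd_dvd_left q r
    obtain ⟨r', hrr⟩ : g ∣ r := Nat.gcd_dvd_right q r
    have hq'0 : 0 < q' := by
      apply Nat.pos_of_ne_zero; rintro rfl; simp at hqq; omega
    have hr'0 : 0 < r' := by
      apply Nat.pos_of_ne_zero; rintro rfl; simp at hrr; omega
    have hcop : Nat.Coprime q' r' := by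
      have h6 : g = Nat.gcd (g * q') (g * r') := by rw [← hqq, ← hrr]
      rw [Nat.gcd_mul_left] at h6
      have h11 : g * Nat.gcd q' r' = g * 1 := by rw [← h6]; ring
      exact Nat.eq_of_mul_eq_mul_left hg0 h11
    have h1 := (Cs_le γ K ψ hψ0 g q' r' hg0 hq'0 hr'0 hcop).1
    rw [← hqq, ← hrr] at h1
    have hgR : (0 : ℝ) < g := by exact_mod_cast hg0
    have eq : (q : ℝ) = g * q' := by exact_mod_cast hqq
    have er : (r : ℝ) = g * r' := by exact_mod_cast hrr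
    have h2 : (Cs γ K ψ q r : ℝ) ≤ 2 * (r * ψ q + q * ψ r) + g := by
      calc (Cs γ K ψ q r : ℝ) ≤ g * (2 * (r' * ψ q + q' * ψ r) + 1) := h1
        _ = _ := by rw [eq, er]; ring
    have hm0 : 0 ≤ min (ψ q / q) (ψ r / r) := by positivity
    have hm1 : min (ψ q / q) (ψ r / r) ≤ ψ q / q := min_le_left _ _
    have hm2 : min (ψ q / q) (ψ r / r) ≤ ψ r / r := min_le_right _ _
    set mm := min (ψ q / q) (ψ r / r) with hmm
    have h3 : mm * (r * ψ q) ≤ ψ q * ψ r := by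
      calc mm * (r * ψ q) ≤ (ψ r / r) * (r * ψ q) := by gcongr
        _ = ψ q * ψ r := by field_simp
    have h4 : mm * (q * ψ r) ≤ ψ q * ψ r := by
      calc mm * (q * ψ r) ≤ (ψ q / q) * (q * ψ r) := by gcongr
        _ = ψ q * ψ r := by field_simp
    have h5 : mm * g ≤ (ψ r / r) * g := by gcongr
    calc P γ K ψ q r ≤ 2 * mm * Cs γ K ψ q r := hP
      _ ≤ 2 * mm * (2 * (r * ψ q + q * ψ r) + g) := by gcongr
      _ = 4 * (mm * (r * ψ q)) + 4 * (mm * (q * ψ r)) + 2 * (mm * g) := by ring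
      _ ≤ _ := by linarith
  · rw [if_neg hfar]
    push Not at hfar
    by_cases hI : ψ q / q ≤ 1 / (16 * (r : ℝ) ^ 2)
    · rw [if_pos ⟨hfar, hI⟩, if_neg (by rintro ⟨_, h⟩; linarith)]
      have h1 : 2 * min (ψ q / q) (ψ r / r) * (Cs γ K ψ q r : ℝ) ≤ 2 * (ψ r / r) * Cs γ K ψ q r := by
        gcongr; exact min_le_right _ _
      have : 0 ≤ 8 * ψ q * ψ r := by positivity
      linarith
    · rw [if_neg (by rintro ⟨_, h⟩; exact hI h), if_pos ⟨hfar, not_le.mp hI⟩]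
      have h0 := hψ1 r (by omega)
      have h1 : 2 * min (ψ q / q) (ψ r / r) * (Cs γ K ψ q r : ℝ)
          ≤ (1 / (8 * (r : ℝ) ^ 2)) * Cs γ K ψ q r := by
        apply mul_le_mul_of_nonneg_right _ hC0
        have : min (ψ q / q) (ψ r / r) ≤ 1 / (16 * (r : ℝ) ^ 2) := (min_le_right _ _).trans h0
        calc 2 * min (ψ q / q) (ψ r / r) ≤ 2 * (1 / (16 * (r : ℝ) ^ 2)) := by linarith
          _ = _ := by field_simp; norm_num
      have : 0 ≤ 8 * ψ q * ψ r := by positivity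
      linarith

lemma sum_split (T : Finset ℕ) (f : ℕ → ℕ → ℝ) (hf : ∀ q r, f q r = f r q) :
    ∑ q ∈ T, ∑ r ∈ T, f q r = ∑ q ∈ T, f q q + 2 * ∑ q ∈ T, ∑ r ∈ T.filter (fun r => q < r), f q r := by
  classical
  have h1 : ∀ q ∈ T, ∑ r ∈ T, f q r = f q q + ∑ r ∈ T.filter (fun r => q < r), f q r +
      ∑ r ∈ T.filter (fun r => r < q), f q r := by
    intro q hq
    have e1 : ∑ r ∈ T, f q r = ∑ r ∈ T.filter (fun r => q < r), f q r
        + ∑ r ∈ T.filter (fun r => ¬ q < r), f q r := (Finset.sum_filter_add_sum_filter_not _ _ _).symm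
    have e2 : ∑ r ∈ T.filter (fun r => ¬ q < r), f q r =
        ∑ r ∈ (T.filter (fun r => ¬ q < r)).filter (fun r => r < q), f q r +
        ∑ r ∈ (T.filter (fun r => ¬ q < r)).filter (fun r => ¬ r < q), f q r :=
      (Finset.sum_filter_add_sum_filter_not _ _ _).symm
    have e3 : (T.filter (fun r => ¬ q < r)).filter (fun r => r < q) = T.filter (fun r => r < q) := by
      ext r; simp only [Finset.mem_filter]; constructor
      · rintro ⟨⟨h1, _⟩, h2⟩; exact ⟨h1, h2⟩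
      · rintro ⟨h1, h2⟩; exact ⟨⟨h1, by omega⟩, h2⟩
    have e4 : (T.filter (fun r => ¬ q < r)).filter (fun r => ¬ r < q) = {q} := by
      ext r; simp only [Finset.mem_filter, Finset.mem_singleton]; constructor
      · rintro ⟨⟨h1, h3⟩, h2⟩; omega
      · rintro rfl; exact ⟨⟨hq, by omega⟩, by omega⟩
    rw [e1, e2, e3, e4, Finset.sum_singleton]; ring
  rw [Finset.sum_congr rfl h1, Finset.sum_add_distrib, Finset.sum_add_distrib]
  have h2 : ∑ q ∈ T, ∑ r ∈ T.filter (fun r => r < q), f q r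
      = ∑ q ∈ T, ∑ r ∈ T.filter (fun r => q < r), f q r := by
    simp only [Finset.sum_filter]
    rw [Finset.sum_comm]
    apply Finset.sum_congr rfl; intro q _
    apply Finset.sum_congr rfl; intro r _
    split_ifs
    · exact hf _ _
    · rfl
  rw [h2]; ring

/-- **Energy bound.** -/
lemma energy (γ K : ℝ) (hK : 1 ≤ K) (ψ : ℕ → ℝ) (hψ0 : ∀ q, 0 ≤ ψ q)
    (hψ1 : ∀ q : ℕ, 1 ≤ q → ψ q / q ≤ 1 / (16 * (q : ℝ) ^ 2))
    (T : Finset ℕ) (hT : ∀ q ∈ T, 1 ≤ q) :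
    ∑ q ∈ T, ∑ r ∈ T, P γ K ψ q r ≤ 8 * (∑ q ∈ T, ψ q) ^ 2 + 242 * K * ∑ q ∈ T, ψ q * F q := by
  classical
  rw [sum_split T (P γ K ψ) (P_symm γ K ψ)]
  have hdiag : ∑ q ∈ T, P γ K ψ q q ≤ ∑ q ∈ T, 2 * (ψ q * F q) := by
    apply Finset.sum_le_sum
    intro q hq
    have h1 := P_diag γ K ψ hψ0 hψ1 q (hT q hq)
    have h2 := one_le_F (hT q hq)
    have h3 := hψ0 q
    nlinarith
  have hoff : ∑ q ∈ T, ∑ r ∈ T.filter (fun r => q < r), P γ K ψ q r ≤
      8 * ∑ q ∈ T, ∑ r ∈ T.filter (fun r => q < r), ψ q * ψ r +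
      120 * K * ∑ q ∈ T, ψ q * F q := by
    have h1 : ∀ q ∈ T, ∀ r ∈ T.filter (fun r => q < r), P γ K ψ q r ≤ 8 * ψ q * ψ r +
      (if Nat.gcd q r * q ≤ r then 2 * (ψ r / r) * (Nat.gcd q r : ℝ) else 0) +
      (if r < Nat.gcd q r * q ∧ ψ q / q ≤ 1 / (16 * (r : ℝ) ^ 2) then
        2 * (ψ r / r) * (Cs γ K ψ q r : ℝ) else 0) +
      (if r < Nat.gcd q r * q ∧ 1 / (16 * (r : ℝ) ^ 2) < ψ q / q then
        (1 / (8 * (r : ℝ) ^ 2)) * (Cs γ K ψ q r : ℝ) else 0) := by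
      intro q hq r hr
      exact P_pair γ K ψ hψ0 hψ1 q r (hT q hq) (Finset.mem_filter.mp hr).2
    refine (Finset.sum_le_sum (fun q hq => Finset.sum_le_sum (h1 q hq))).trans ?_
    simp only [Finset.sum_add_distrib]
    -- far part
    have hfar : ∑ q ∈ T, ∑ r ∈ T.filter (fun r => q < r),
        (if Nat.gcd q r * q ≤ r then 2 * (ψ r / r) * (Nat.gcd q r : ℝ) else 0)
        ≤ 2 * ∑ r ∈ T, ψ r * F r := by
      have e : ∑ q ∈ T, ∑ r ∈ T.filter (fun r => q < r),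
        (if Nat.gcd q r * q ≤ r then 2 * (ψ r / r) * (Nat.gcd q r : ℝ) else 0)
        = ∑ r ∈ T, 2 * (ψ r / r) *
          ∑ q ∈ T.filter (fun q => q < r ∧ Nat.gcd q r * q ≤ r), (Nat.gcd q r : ℝ) := by
        simp only [Finset.sum_filter, Finset.mul_sum]
        rw [Finset.sum_comm]
        apply Finset.sum_congr rfl; intro r _
        apply Finset.sum_congr rfl; intro q _
        by_cases h2 : q < r <;> by_cases h3 : Nat.gcd q r * q ≤ r <;> simp [h2, h3]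
      rw [e, Finset.mul_sum]
      apply Finset.sum_le_sum
      intro r hr
      have hr1 := hT r hr
      have hrR : (0 : ℝ) < r := by exact_mod_cast hr1
      have h2 := far_sum T hT r hr1
      have h3 := hψ0 r
      calc 2 * (ψ r / r) * ∑ q ∈ T.filter (fun q => q < r ∧ Nat.gcd q r * q ≤ r), (Nat.gcd q r : ℝ)
          ≤ 2 * (ψ r / r) * (r * F r) := by gcongr
        _ = 2 * (ψ r * F r) := by field_simp
    have hI : ∑ q ∈ T, ∑ r ∈ T.filter (fun r => q < r),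
        (if r < Nat.gcd q r * q ∧ ψ q / q ≤ 1 / (16 * (r : ℝ) ^ 2) then
        2 * (ψ r / r) * (Cs γ K ψ q r : ℝ) else 0) ≤ 28 * K * ∑ r ∈ T, ψ r * F r := by
      have e : ∑ q ∈ T, ∑ r ∈ T.filter (fun r => q < r),
        (if r < Nat.gcd q r * q ∧ ψ q / q ≤ 1 / (16 * (r : ℝ) ^ 2) then
        2 * (ψ r / r) * (Cs γ K ψ q r : ℝ) else 0)
        = ∑ r ∈ T, 2 * (ψ r / r) *
          ∑ q ∈ T.filter (fun q => q < r ∧ r < Nat.gcd q r * q ∧
            ψ q / q ≤ 1 / (16 * (r : ℝ) ^ 2)), (Cs γ K ψ q r : ℝ) := by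
        simp only [Finset.sum_filter, Finset.mul_sum]
        rw [Finset.sum_comm]
        apply Finset.sum_congr rfl; intro r _
        apply Finset.sum_congr rfl; intro q _
        by_cases h2 : q < r <;> by_cases h3 : r < Nat.gcd q r * q ∧
            ψ q / q ≤ 1 / (16 * (r : ℝ) ^ 2) <;> simp [h2, h3]
      rw [e, Finset.mul_sum]
      apply Finset.sum_le_sum
      intro r hr
      have hr1 := hT r hr
      have hrR : (0 : ℝ) < r := by exact_mod_cast hr1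
      have h2 := sum_I γ K hK ψ hψ0 hψ1 T hT r hr1
      have h3 := hψ0 r
      calc 2 * (ψ r / r) * ∑ q ∈ T.filter (fun q => q < r ∧ r < Nat.gcd q r * q ∧
            ψ q / q ≤ 1 / (16 * (r : ℝ) ^ 2)), (Cs γ K ψ q r : ℝ)
          ≤ 2 * (ψ r / r) * (14 * K * r * F r) := by gcongr
        _ = 28 * K * (ψ r * F r) := by field_simp; ring
    have hII : ∑ q ∈ T, ∑ r ∈ T.filter (fun r => q < r),
        (if r < Nat.gcd q r * q ∧ 1 / (16 * (r : ℝ) ^ 2) < ψ q / q then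
        (1 / (8 * (r : ℝ) ^ 2)) * (Cs γ K ψ q r : ℝ) else 0) ≤ 90 * K * ∑ q ∈ T, ψ q * F q := by
      rw [Finset.mul_sum]
      apply Finset.sum_le_sum
      intro q hq
      have h2 := sum_II_total γ K hK ψ hψ0 hψ1 T q (hT q hq)
      have e : ∑ r ∈ T.filter (fun r => q < r),
        (if r < Nat.gcd q r * q ∧ 1 / (16 * (r : ℝ) ^ 2) < ψ q / q then
        (1 / (8 * (r : ℝ) ^ 2)) * (Cs γ K ψ q r : ℝ) else 0) =
        ∑ r ∈ T.filter (fun r => q < r ∧ r < Nat.gcd q r * q ∧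
          1 / (16 * (r : ℝ) ^ 2) < ψ q / q), (1 / (8 * (r : ℝ) ^ 2)) * (Cs γ K ψ q r : ℝ) := by
        simp only [Finset.sum_filter]
        apply Finset.sum_congr rfl; intro r _
        by_cases h2 : q < r <;> by_cases h3 : r < Nat.gcd q r * q ∧
            1 / (16 * (r : ℝ) ^ 2) < ψ q / q <;> simp [h2, h3]
      rw [e]
      linarith
    have hmain : ∑ q ∈ T, ∑ r ∈ T.filter (fun r => q < r), 8 * ψ q * ψ r =
        8 * ∑ q ∈ T, ∑ r ∈ T.filter (fun r => q < r), ψ q * ψ r := by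
      simp only [Finset.mul_sum, mul_assoc]
    rw [hmain]
    have hS : 0 ≤ ∑ q ∈ T, ψ q * F q := by
      apply Finset.sum_nonneg
      intro q hq
      have h1 := hψ0 q
      have h2 := one_le_F (hT q hq)
      positivity
    nlinarith
  have hsq : 2 * ∑ q ∈ T, ∑ r ∈ T.filter (fun r => q < r), ψ q * ψ r ≤ (∑ q ∈ T, ψ q) ^ 2 := by
    have e1 : (∑ q ∈ T, ψ q) ^ 2 = ∑ q ∈ T, ∑ r ∈ T, ψ q * ψ r := by
      rw [sq, Finset.sum_mul_sum]
    rw [e1, sum_split T (fun q r => ψ q * ψ r) (fun q r => mul_comm _ _)]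
    have : 0 ≤ ∑ q ∈ T, ψ q * ψ q := Finset.sum_nonneg (fun q _ => mul_self_nonneg _)
    linarith
  have hS : 0 ≤ ∑ q ∈ T, ψ q * F q := by
    apply Finset.sum_nonneg
    intro q hq
    have h1 := hψ0 q
    have h2 := one_le_F (hT q hq)
    positivity
  rw [← Finset.mul_sum] at hdiag
  nlinarith

end Vale.Agent.H4.IDS
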