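import Vale.Agent.H4.IDS.Meas

namespace Vale.Agent.H4.IDS

open Finset MeasureTheory

/-- Divergence of the weighted series gives finite sets with large unweighted mass. -/
lemma supply (ψ : ℕ → ℝ) (hψ0 : ∀ q, 0 ≤ ψ q) (hdiv : ¬ Summable (fun q : ℕ => ψ q / F q ^ 4))
    (C : ℝ) (hC : 0 ≤ C) (n : ℕ) (hn : 1 ≤ n) :
    ∃ (Φ : ℝ) (T : Finset ℕ), 1 ≤ Φ ∧ (∀ q ∈ T, n ≤ q ∧ F q ≤ Φ) ∧ C * Φ ^ 3 ≤ ∑ q ∈ T, ψ q := by
  classical
  by_contra hcon
  push Not at hcon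
  apply hdiv
  have hnn : ∀ q : ℕ, 0 ≤ ψ q / F q ^ 4 := by
    intro q
    have h1 := hψ0 q
    have h2 : 0 ≤ F q := Finset.sum_nonneg (fun d _ => by positivity)
    positivity
  apply summable_of_sum_le hnn (c := ∑ q ∈ Finset.range n, ψ q / F q ^ 4 + 16 * C)
  intro S
  have h1 : ∑ q ∈ S, ψ q / F q ^ 4 = ∑ q ∈ S.filter (fun q => q < n), ψ q / F q ^ 4 +
      ∑ q ∈ S.filter (fun q => ¬ q < n), ψ q / F q ^ 4 :=
    (Finset.sum_filter_add_sum_filter_not _ _ _).symm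
  rw [h1]
  apply add_le_add
  · apply Finset.sum_le_sum_of_subset_of_nonneg
    · intro q hq
      rw [Finset.mem_range]; exact (Finset.mem_filter.mp hq).2
    · intro q _ _; exact hnn q
  · set S₂ := S.filter (fun q => ¬ q < n) with hS₂
    set lev : ℕ → ℕ := fun q => Nat.log 2 ⌊F q⌋₊ with hlev
    have h2 : ∑ q ∈ S₂, ψ q / F q ^ 4 =
        ∑ k ∈ S₂.image lev, ∑ q ∈ S₂.filter (fun q => lev q = k), ψ q / F q ^ 4 := by
      rw [Finset.sum_fiberwise_of_maps_to]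
      intro q hq; exact Finset.mem_image_of_mem _ hq
    rw [h2]
    have hFlev : ∀ q ∈ S₂, (2 : ℝ) ^ lev q ≤ F q ∧ F q ≤ 2 ^ (lev q + 1) := by
      intro q hq
      have hqn : ¬ q < n := (Finset.mem_filter.mp hq).2
      have hF1 := one_le_F (q := q) (by omega)
      have hfl : 1 ≤ ⌊F q⌋₊ := Nat.le_floor (by exact_mod_cast hF1)
      constructor
      · have h3 : 2 ^ Nat.log 2 ⌊F q⌋₊ ≤ ⌊F q⌋₊ := Nat.pow_log_le_self 2 (by omega)
        have h4 : (⌊F q⌋₊ : ℝ) ≤ F q := Nat.floor_le (by linarith)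
        calc (2 : ℝ) ^ lev q ≤ (⌊F q⌋₊ : ℝ) := by exact_mod_cast h3
          _ ≤ F q := h4
      · have h3 : ⌊F q⌋₊ < 2 ^ (Nat.log 2 ⌊F q⌋₊ + 1) := Nat.lt_pow_succ_log_self (by omega) _
        have h4 : F q < ⌊F q⌋₊ + 1 := Nat.lt_floor_add_one _
        have h5 : ((⌊F q⌋₊ : ℝ) + 1) ≤ 2 ^ (lev q + 1) := by exact_mod_cast h3
        linarith
    have h3 : ∀ k ∈ S₂.image lev, ∑ q ∈ S₂.filter (fun q => lev q = k), ψ q / F q ^ 4
        ≤ 8 * C * (1 / 2) ^ k := by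
      intro k _
      have h4 := hcon (2 ^ (k + 1)) (S₂.filter (fun q => lev q = k))
        (one_le_pow₀ (by norm_num)) ?_
      · have h5 : ∑ q ∈ S₂.filter (fun q => lev q = k), ψ q / F q ^ 4
            ≤ ∑ q ∈ S₂.filter (fun q => lev q = k), ψ q / ((2 : ℝ) ^ k) ^ 4 := by
          apply Finset.sum_le_sum
          intro q hq
          obtain ⟨h6, h7⟩ := Finset.mem_filter.mp hq
          have h8 := (hFlev q h6).1
          rw [h7] at h8
          have h9 := hψ0 q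
          gcongr
        refine h5.trans ?_
        rw [← Finset.sum_div, div_le_iff₀ (by positivity)]
        refine h4.le.trans (le_of_eq ?_)
        have e1 : ((1 : ℝ) / 2) ^ k * ((2 : ℝ) ^ k) ^ 4 = ((2 : ℝ) ^ k) ^ 3 := by
          have : ((1 : ℝ) / 2) ^ k * (2 : ℝ) ^ k = 1 := by
            rw [← mul_pow]; norm_num
          calc ((1 : ℝ) / 2) ^ k * ((2 : ℝ) ^ k) ^ 4 = (((1 : ℝ) / 2) ^ k * (2 : ℝ) ^ k) *
                ((2 : ℝ) ^ k) ^ 3 := by ring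
            _ = _ := by rw [this, one_mul]
        rw [mul_assoc, e1, pow_succ]
        ring
      · intro q hq
        obtain ⟨h6, h7⟩ := Finset.mem_filter.mp hq
        have h8 := (hFlev q h6).2
        rw [h7] at h8
        have hqn : ¬ q < n := (Finset.mem_filter.mp h6).2
        exact ⟨by omega, h8⟩
    refine (Finset.sum_le_sum h3).trans ?_
    rw [← Finset.mul_sum]
    have h4 : ∑ k ∈ S₂.image lev, ((1 : ℝ) / 2) ^ k ≤ 1 / (1 - 1 / 2) := by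
      apply geom_le _ (1 / 2) (by norm_num) (by norm_num) 1 (by norm_num)
      intro j _
      exact pow_le_one₀ (by norm_num) (by norm_num)
    calc 8 * C * ∑ k ∈ S₂.image lev, ((1 : ℝ) / 2) ^ k ≤ 8 * C * (1 / (1 - 1 / 2)) := by gcongr
      _ = 16 * C := by ring

/-- the closed set of points that avoid all intervals from `n` on -/
def Av (γ : ℝ) (ψ : ℕ → ℝ) (n : ℕ) : Set ℝ :=
  Set.Icc 0 1 ∩ ⋂ q : ℕ, ⋂ _ : n ≤ q, ⋂ a : ℕ, ⋂ _ : a < q, (Bl γ ψ q a)ᶜ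

lemma Av_closed (γ : ℝ) (ψ : ℕ → ℝ) (n : ℕ) : IsClosed (Av γ ψ n) := by
  unfold Av
  apply IsClosed.inter isClosed_Icc
  apply isClosed_iInter; intro q
  apply isClosed_iInter; intro _
  apply isClosed_iInter; intro a
  apply isClosed_iInter; intro _
  exact (Metric.isOpen_ball).isClosed_compl

lemma Av_compact (γ : ℝ) (ψ : ℕ → ℝ) (n : ℕ) : IsCompact (Av γ ψ n) :=
  isCompact_Icc.of_isClosed_subset (Av_closed γ ψ n) Set.inter_subset_left

/-- contribution of the bad numerators -/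
lemma bad_sum (γ : ℝ) (ψ : ℕ → ℝ) (hψ0 : ∀ q, 0 ≤ ψ q) (D : Set ℝ) (c Φ : ℝ) (hc : 16 ≤ c)
    (hΦ : 1 ≤ Φ) (T : Finset ℕ) (hT : ∀ q ∈ T, 1 ≤ q ∧ F q ≤ Φ)
    (K : ℝ) (hK : K = c ^ 2 * Φ ^ 2) :
    ∑ q ∈ T, ∑ a ∈ Finset.range q \ Gd γ K q, volume.real (Bl γ ψ q a ∩ D)
      ≤ 4 / c * ∑ q ∈ T, ψ q := by
  classical
  have hcpos : 0 < c := by linarith
  have hK2 : 2 ≤ K := by
    have h1 : (1 : ℝ) ≤ Φ ^ 2 := one_le_pow₀ hΦ
    rw [hK]; nlinarith
  have hsqrtK : √K = c * Φ := by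
    rw [hK, ← mul_pow]
    exact Real.sqrt_sq (by positivity)
  rw [Finset.mul_sum]
  apply Finset.sum_le_sum
  intro q hq
  have hq1 := (hT q hq).1
  have hqR : (0 : ℝ) < q := by exact_mod_cast hq1
  have h2 : ∀ a ∈ Finset.range q \ Gd γ K q,
      volume.real (Bl γ ψ q a ∩ D) ≤ 2 * (ψ q / q) := by
    intro a _
    rw [← Bl_vol γ ψ hψ0 q a]
    exact measureReal_mono Set.inter_subset_left (Bl_ne_top γ ψ q a)
  refine (Finset.sum_le_card_nsmul _ _ _ h2).trans ?_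
  rw [nsmul_eq_mul]
  have h3 := bad_card γ K hK2 q hq1
  have hsub : Finset.range q \ Gd γ K q ⊆ (Finset.range q).filter (fun a => BadNum γ K q a) := by
    intro a ha
    rw [Finset.mem_sdiff] at ha
    rw [Finset.mem_filter]
    refine ⟨ha.1, ?_⟩
    by_contra hcon
    exact ha.2 (by unfold Gd; exact Finset.mem_filter.mpr ⟨ha.1, hcon⟩)
  have h3' : ((Finset.range q \ Gd γ K q).card : ℝ) ≤ q * F q * (1 / √K + 16 / K ^ 2) :=
    le_trans (by exact_mod_cast Finset.card_le_card hsub) h3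
  have hψq := hψ0 q
  have hF := (hT q hq).2
  have hF0 : 0 ≤ F q := by linarith [one_le_F hq1]
  have h4 : 1 / √K + 16 / K ^ 2 ≤ 2 / (c * Φ) := by
    rw [hsqrtK]
    have h5 : 16 / K ^ 2 ≤ 1 / (c * Φ) := by
      rw [div_le_div_iff₀ (by positivity) (by positivity), hK]
      have h6 : (1 : ℝ) ≤ Φ ^ 3 := one_le_pow₀ hΦ
      have h7 : (16 : ℝ) ≤ c ^ 3 := by nlinarith [sq_nonneg c]
      calc 16 * (c * Φ) = (c * Φ) * (16 * 1) := by ring
        _ ≤ (c * Φ) * (c ^ 3 * Φ ^ 3) := by gcongr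
        _ = 1 * (c ^ 2 * Φ ^ 2) ^ 2 := by ring
    have h8 : 2 / (c * Φ) = 1 / (c * Φ) + 1 / (c * Φ) := by ring
    rw [h8]; linarith
  calc ((Finset.range q \ Gd γ K q).card : ℝ) * (2 * (ψ q / q))
      ≤ (q * F q * (1 / √K + 16 / K ^ 2)) * (2 * (ψ q / q)) := by gcongr
    _ ≤ (q * Φ * (2 / (c * Φ))) * (2 * (ψ q / q)) := by gcongr
    _ = 4 / c * ψ q := by field_simp; ring

/-- contribution of the good numerators -/
lemma good_sum (γ K : ℝ) (ψ : ℕ → ℝ) (D : Set ℝ) (hDm : MeasurableSet D) (hDf : volume D ≠ ⊤)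
    (η : ℝ) (hDη : volume.real D ≤ η) (T : Finset ℕ) (Ψ : ℝ) (hΨ : 0 < Ψ)
    (hE : ∑ q ∈ T, ∑ r ∈ T, P γ K ψ q r ≤ 9 * Ψ ^ 2) (s : ℝ) (hs : 0 < s) :
    ∑ q ∈ T, ∑ a ∈ Gd γ K q, volume.real (Bl γ ψ q a ∩ D) ≤
      (s * Ψ) / 2 * η + 1 / (2 * (s * Ψ)) * (9 * Ψ ^ 2) := by
  classical
  have hint := integral_ineq (T.sigma (fun q => Gd γ K q)) (fun i => Bl γ ψ i.1 i.2) D hDm hDf
    (fun i => Bl_meas γ ψ i.1 i.2)
    (fun i => Bl_ne_top γ ψ i.1 i.2) (s * Ψ) (by positivity)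
  have hII : ∑ i ∈ T.sigma (fun q => Gd γ K q), ∑ j ∈ T.sigma (fun q => Gd γ K q),
      volume.real (Bl γ ψ i.1 i.2 ∩ Bl γ ψ j.1 j.2) = ∑ q ∈ T, ∑ r ∈ T, P γ K ψ q r := by
    rw [Finset.sum_sigma]
    apply Finset.sum_congr rfl; intro q _
    have : ∀ a ∈ Gd γ K q, ∑ j ∈ T.sigma (fun q => Gd γ K q),
        volume.real (Bl γ ψ q a ∩ Bl γ ψ j.1 j.2) =
        ∑ r ∈ T, ∑ b ∈ Gd γ K r, volume.real (Bl γ ψ q a ∩ Bl γ ψ r b) := by
      intro a _
      rw [Finset.sum_sigma]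
    rw [Finset.sum_congr rfl this, Finset.sum_comm]
    rfl
  have e1 : ∑ q ∈ T, ∑ a ∈ Gd γ K q, volume.real (Bl γ ψ q a ∩ D) =
      ∑ i ∈ T.sigma (fun q => Gd γ K q), volume.real (Bl γ ψ i.1 i.2 ∩ D) := by
    rw [Finset.sum_sigma]
  rw [e1]
  refine hint.trans ?_
  rw [hII]
  gcongr

lemma cells_disjoint (N : ℕ) (hN : 0 < N) (i j : ℕ) (hij : i ≠ j) :
    Disjoint (Set.Ico ((i : ℝ) / N) (((i : ℝ) + 1) / N)) (Set.Ico ((j : ℝ) / N) (((j : ℝ) + 1) / N)) := by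
  have hNpos : (0 : ℝ) < N := by exact_mod_cast hN
  rw [Set.disjoint_left]
  intro x hx hx'
  apply hij
  have h1 := (div_le_iff₀ hNpos).mp hx.1
  have h2 := (lt_div_iff₀ hNpos).mp hx.2
  have h3 := (div_le_iff₀ hNpos).mp hx'.1
  have h4 := (lt_div_iff₀ hNpos).mp hx'.2
  have h5 : (i : ℝ) < j + 1 := by linarith
  have h6 : (j : ℝ) < i + 1 := by linarith
  have h5' : i < j + 1 := by exact_mod_cast h5
  have h6' : j < i + 1 := by exact_mod_cast h6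
  omega

/-- approximation of a compact subset of `[0,1]` by cells of a grid -/
lemma grid (E : Set ℝ) (hEc : IsCompact E) (hE01 : E ⊆ Set.Icc 0 1) (η : ℝ) (hη : 0 < η) :
    ∃ (N : ℕ) (𝒦 : Finset ℕ), 1 ≤ N ∧ (∀ k ∈ 𝒦, k < N) ∧
      volume.real E ≤ 𝒦.card * (1 / (N : ℝ)) ∧
      volume.real ((⋃ k ∈ 𝒦, Set.Ico ((k : ℝ) / N) (((k : ℝ) + 1) / N)) \ E) ≤ η := by
  classical
  have hEm : MeasurableSet E := hEc.measurableSet
  have hEf : volume E ≠ ⊤ := hEc.measure_lt_top.ne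
  set e := volume.real E with he
  have he0 : 0 ≤ e := measureReal_nonneg
  obtain ⟨δ, hδpos, hδ⟩ : ∃ δ > 0, volume (Metric.cthickening δ E) ≤ ENNReal.ofReal (e + η) := by
    have h1 := tendsto_measure_cthickening_of_isCompact (μ := (volume : Measure ℝ)) hEc
    have h2 : volume E < ENNReal.ofReal (e + η) := by
      rw [← ENNReal.ofReal_toReal hEf]
      apply (ENNReal.ofReal_lt_ofReal_iff (by positivity)).mpr
      change e < e + η
      linarith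
    have h3 := (h1.eventually (gt_mem_nhds h2))
    rw [Metric.eventually_nhds_iff] at h3
    obtain ⟨r, hr, h4⟩ := h3
    refine ⟨r / 2, by positivity, (h4 ?_).le⟩
    rw [Real.dist_eq, sub_zero, abs_of_pos (by positivity)]
    linarith
  obtain ⟨N, hN⟩ := exists_nat_gt (1 / δ)
  have hNpos : (0 : ℝ) < N := lt_trans (by positivity) hN
  have hN0 : 0 < N := by exact_mod_cast hNpos
  have hNδ : 1 / (N : ℝ) < δ := by
    rw [div_lt_iff₀ hNpos]
    rw [div_lt_iff₀ hδpos] at hN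
    linarith
  set cell : ℕ → Set ℝ := fun k => Set.Ico ((k : ℝ) / N) (((k : ℝ) + 1) / N) with hcell
  set 𝒦 := (Finset.range N).filter (fun k => (cell k ∩ E).Nonempty) with h𝒦
  set V : Set ℝ := ⋃ k ∈ 𝒦, cell k with hV
  have hcellm : ∀ k, MeasurableSet (cell k) := fun k => measurableSet_Ico
  have hVm : MeasurableSet V := Finset.measurableSet_biUnion _ (fun k _ => hcellm k)
  have hVsub : V ⊆ Metric.cthickening δ E := by
    intro x hx
    rw [hV, Set.mem_iUnion₂] at hx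
    obtain ⟨k, hk, hxk⟩ := hx
    obtain ⟨y, hyk, hyE⟩ := (Finset.mem_filter.mp hk).2
    apply Metric.mem_cthickening_of_dist_le x y δ E hyE
    rw [Real.dist_eq]
    have h1 := hxk.1; have h2 := hxk.2; have h3 := hyk.1; have h4 := hyk.2
    have h5 : ((k : ℝ) + 1) / N = k / N + 1 / N := by ring
    rw [h5] at h2 h4
    rw [abs_le]; constructor <;> linarith
  have hVf : volume V ≠ ⊤ := by
    apply ne_top_of_le_ne_top _ ((measure_mono hVsub).trans hδ)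
    exact ENNReal.ofReal_ne_top
  have hVle : volume.real V ≤ e + η := by
    rw [Measure.real]
    apply ENNReal.toReal_le_of_le_ofReal (by positivity)
    exact (measure_mono hVsub).trans hδ
  have hEV : E \ {1} ⊆ V := by
    rintro x ⟨hxE, hx1⟩
    have hx01 : x ∈ Set.Icc (0 : ℝ) 1 := hE01 hxE
    have hx1' : x < 1 := lt_of_le_of_ne hx01.2 hx1
    rw [hV, Set.mem_iUnion₂]
    have hmem : x ∈ cell ⌊x * N⌋₊ := by
      constructor
      · rw [div_le_iff₀ hNpos]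
        exact Nat.floor_le (mul_nonneg hx01.1 hNpos.le)
      · rw [lt_div_iff₀ hNpos]
        exact Nat.lt_floor_add_one _
    refine ⟨⌊x * N⌋₊, ?_, hmem⟩
    rw [h𝒦, Finset.mem_filter, Finset.mem_range]
    refine ⟨?_, ⟨x, hmem, hxE⟩⟩
    rw [Nat.floor_lt (mul_nonneg hx01.1 hNpos.le)]
    nlinarith
  have hVE : e ≤ volume.real (V ∩ E) := by
    have h1 : volume E ≤ volume (V ∩ E) + volume ({1} : Set ℝ) := by
      refine le_trans (measure_mono ?_) (measure_union_le _ _)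
      intro x hx
      by_cases h : x = 1
      · right; exact h
      · left; exact ⟨hEV ⟨hx, h⟩, hx⟩
    rw [Real.volume_singleton, add_zero] at h1
    rw [he, Measure.real, Measure.real]
    exact ENNReal.toReal_mono (ne_top_of_le_ne_top hVf (measure_mono Set.inter_subset_left)) h1
  have hDle : volume.real (V \ E) ≤ η := by
    have h1 : volume.real (V ∩ E) + volume.real (V \ E) = volume.real V :=
      measureReal_inter_add_sdiff hEm hVf
    linarith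
  have hVK : volume.real V = 𝒦.card * (1 / N) := by
    rw [hV, measureReal_biUnion_finset (fun i _ j _ hij => cells_disjoint N hN0 i j hij)
      (fun k _ => hcellm k) (fun k _ => by
        rw [Real.volume_Ico]; exact ENNReal.ofReal_ne_top)]
    have : ∀ k ∈ 𝒦, volume.real (cell k) = 1 / N := by
      intro k _
      rw [hcell, Measure.real, Real.volume_Ico, ENNReal.toReal_ofReal]
      · ring
      · have : ((k : ℝ) + 1) / N - k / N = 1 / N := by ring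
        rw [this]; positivity
    rw [Finset.sum_congr rfl this, Finset.sum_const, nsmul_eq_mul]
  refine ⟨N, 𝒦, hN0, fun k hk => Finset.mem_range.mp (Finset.mem_filter.mp hk).1, ?_, hDle⟩
  rw [← hVK]
  exact hVE.trans (measureReal_mono Set.inter_subset_left hVf)

/-- lower bound for the mass of the balls in a union of cells -/
lemma lower_sum (γ : ℝ) (hγ0 : 0 ≤ γ) (hγ1 : γ < 1) (ψ : ℕ → ℝ) (hψ0 : ∀ q, 0 ≤ ψ q)
    (hψ1 : ∀ q : ℕ, 1 ≤ q → ψ q / q ≤ 1 / (16 * (q : ℝ) ^ 2))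
    (N : ℕ) (hN : 1 ≤ N) (𝒦 : Finset ℕ) (h𝒦 : ∀ k ∈ 𝒦, k < N) (T : Finset ℕ)
    (hT : ∀ q ∈ T, 1 ≤ q ∧ 4 * N ≤ q) (e : ℝ) (he : e ≤ 𝒦.card * (1 / (N : ℝ))) :
    (∑ q ∈ T, ψ q) * e ≤ ∑ q ∈ T, ∑ a ∈ Finset.range q,
      volume.real (Bl γ ψ q a ∩ ⋃ k ∈ 𝒦, Set.Ico ((k : ℝ) / N) (((k : ℝ) + 1) / N)) := by
  classical
  have hNpos : (0 : ℝ) < N := by exact_mod_cast hN
  rw [Finset.sum_mul]
  apply Finset.sum_le_sum
  intro q hq
  have hq1 := (hT q hq).1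
  have hqR : (0 : ℝ) < q := by exact_mod_cast hq1
  have hψq := hψ0 q
  have hqN : (4 : ℝ) * N ≤ q := by exact_mod_cast (hT q hq).2
  have h1 : ∀ a ∈ Finset.range q,
      volume.real (Bl γ ψ q a ∩ ⋃ k ∈ 𝒦, Set.Ico ((k : ℝ) / N) (((k : ℝ) + 1) / N)) =
      ∑ k ∈ 𝒦, volume.real (Bl γ ψ q a ∩ Set.Ico ((k : ℝ) / N) (((k : ℝ) + 1) / N)) := by
    intro a _
    rw [Set.inter_iUnion₂, measureReal_biUnion_finset
      (fun i _ j _ hij => (cells_disjoint N (by omega) i j hij).mono Set.inter_subset_right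
        Set.inter_subset_right)
      (fun k _ => (Bl_meas γ ψ q a).inter measurableSet_Ico)
      (fun k _ => ne_top_of_le_ne_top (Bl_ne_top γ ψ q a) (measure_mono Set.inter_subset_left))]
  rw [Finset.sum_congr rfl h1, Finset.sum_comm]
  have h2 : ∀ k ∈ 𝒦, ((q : ℝ) / N - 2) * (2 * (ψ q / q)) ≤
      ∑ a ∈ Finset.range q,
        volume.real (Bl γ ψ q a ∩ Set.Ico ((k : ℝ) / N) (((k : ℝ) + 1) / N)) := by
    intro k hk
    exact cell_lower γ hγ0 hγ1 ψ hψ0 hψ1 q hq1 N k hN (h𝒦 k hk)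
  refine le_trans ?_ (Finset.card_nsmul_le_sum _ _ _ h2)
  rw [nsmul_eq_mul]
  have h3 : (q : ℝ) / (2 * N) ≤ q / N - 2 := by
    have : (q : ℝ) / N - 2 - q / (2 * N) = (q - 4 * N) / (2 * N) := by field_simp; ring
    have h4 : 0 ≤ ((q : ℝ) - 4 * N) / (2 * N) := by
      apply div_nonneg; linarith; positivity
    linarith
  calc ψ q * e ≤ ψ q * (𝒦.card * (1 / (N : ℝ))) := by gcongr
    _ = 𝒦.card * (q / (2 * N) * (2 * (ψ q / q))) := by field_simp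
    _ ≤ 𝒦.card * (((q : ℝ) / N - 2) * (2 * (ψ q / q))) := by gcongr

/-- **Main step**: the avoiding sets are null. -/
lemma Av_null (γ : ℝ) (hγ0 : 0 ≤ γ) (hγ1 : γ < 1) (ψ : ℕ → ℝ) (hψ0 : ∀ q, 0 ≤ ψ q)
    (hψ1 : ∀ q : ℕ, 1 ≤ q → ψ q / q ≤ 1 / (16 * (q : ℝ) ^ 2))
    (hdiv : ¬ Summable (fun q : ℕ => ψ q / F q ^ 4)) (n : ℕ) : volume (Av γ ψ n) = 0 := by
  classical
  by_contra hne
  have hEf : volume (Av γ ψ n) ≠ ⊤ := (Av_compact γ ψ n).measure_lt_top.ne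
  have hEm : MeasurableSet (Av γ ψ n) := (Av_closed γ ψ n).measurableSet
  obtain ⟨e, he⟩ : ∃ e, e = volume.real (Av γ ψ n) := ⟨_, rfl⟩
  have hepos : 0 < e := by
    rw [he, Measure.real]
    exact ENNReal.toReal_pos hne hEf
  have he1 : e ≤ 1 := by
    have h1 : volume.real (Av γ ψ n) ≤ volume.real (Set.Icc (0 : ℝ) 1) :=
      measureReal_mono Set.inter_subset_left (by rw [Real.volume_Icc]; exact ENNReal.ofReal_ne_top)
    rw [← he, Measure.real, Real.volume_Icc] at h1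
    simpa using h1
  obtain ⟨N, 𝒦, hN, h𝒦, hKe, hD⟩ := grid (Av γ ψ n) (Av_compact γ ψ n) Set.inter_subset_left
    (e ^ 2 / 72) (by positivity)
  rw [← he] at hKe
  have hc16 : 16 ≤ 16 / e := by
    rw [le_div_iff₀ hepos]; linarith
  obtain ⟨c, hc⟩ : ∃ c, c = 16 / e := ⟨_, rfl⟩
  rw [← hc] at hc16
  have hcpos : 0 < c := by linarith
  obtain ⟨Φ, T, hΦ, hT, hmass⟩ := supply ψ hψ0 hdiv (242 * c ^ 2) (by positivity)
    (max (max n (4 * N)) 1) (le_max_right _ _)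
  have hTn : ∀ q ∈ T, n ≤ q := fun q hq =>
    ((le_max_left _ _).trans (le_max_left _ _)).trans (hT q hq).1
  have hTN : ∀ q ∈ T, 4 * N ≤ q := fun q hq =>
    ((le_max_right _ _).trans (le_max_left _ _)).trans (hT q hq).1
  have hT1 : ∀ q ∈ T, 1 ≤ q := fun q hq => (le_max_right _ _).trans (hT q hq).1
  obtain ⟨Ψ, hΨ⟩ : ∃ Ψ, Ψ = ∑ q ∈ T, ψ q := ⟨_, rfl⟩
  rw [← hΨ] at hmass
  have hΨpos : 0 < Ψ := lt_of_lt_of_le (by positivity) hmass
  obtain ⟨K, hK⟩ : ∃ K, K = c ^ 2 * Φ ^ 2 := ⟨_, rfl⟩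
  have hK1 : 1 ≤ K := by
    have h1 : (1 : ℝ) ≤ Φ ^ 2 := one_le_pow₀ hΦ
    rw [hK]; nlinarith
  have hSF : ∑ q ∈ T, ψ q * F q ≤ Φ * Ψ := by
    rw [hΨ, Finset.mul_sum]
    apply Finset.sum_le_sum
    intro q hq
    have h1 := hψ0 q
    have h2 := (hT q hq).2
    rw [mul_comm]
    gcongr
  have hEnergy := energy γ K hK1 ψ hψ0 hψ1 T hT1
  have hEnergy2 : ∑ q ∈ T, ∑ r ∈ T, P γ K ψ q r ≤ 9 * Ψ ^ 2 := by
    have h1 : 242 * K * ∑ q ∈ T, ψ q * F q ≤ Ψ * Ψ := by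
      calc 242 * K * ∑ q ∈ T, ψ q * F q ≤ 242 * K * (Φ * Ψ) := by gcongr
        _ = (242 * c ^ 2 * Φ ^ 3) * Ψ := by rw [hK]; ring
        _ ≤ Ψ * Ψ := by gcongr
    rw [← hΨ] at hEnergy
    nlinarith
  set V : Set ℝ := ⋃ k ∈ 𝒦, Set.Ico ((k : ℝ) / N) (((k : ℝ) + 1) / N) with hV
  have hVm : MeasurableSet V := Finset.measurableSet_biUnion _ (fun k _ => measurableSet_Ico)
  have hVf : volume V ≠ ⊤ := by
    apply ne_top_of_le_ne_top _ (measure_biUnion_finset_le _ _)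
    apply (ENNReal.sum_lt_top.mpr _).ne
    intro k _
    rw [Real.volume_Ico]; exact ENNReal.ofReal_lt_top
  have hlower := lower_sum γ hγ0 hγ1 ψ hψ0 hψ1 N hN 𝒦 h𝒦 T (fun q hq => ⟨hT1 q hq, hTN q hq⟩) e hKe
  rw [← hΨ] at hlower
  have hbad := bad_sum γ ψ hψ0 (V \ Av γ ψ n) c Φ hc16 hΦ T (fun q hq => ⟨hT1 q hq, (hT q hq).2⟩) K hK
  rw [← hΨ] at hbad
  have hgood := good_sum γ K ψ (V \ Av γ ψ n) (hVm.diff hEm)
    (ne_top_of_le_ne_top hVf (measure_mono Set.sdiff_subset)) (e ^ 2 / 72) hD T Ψ hΨpos hEnergy2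
    (18 / e) (by positivity)
  have hupper : ∑ q ∈ T, ∑ a ∈ Finset.range q, volume.real (Bl γ ψ q a ∩ V) =
      ∑ q ∈ T, ∑ a ∈ Finset.range q \ Gd γ K q, volume.real (Bl γ ψ q a ∩ (V \ Av γ ψ n)) +
      ∑ q ∈ T, ∑ a ∈ Gd γ K q, volume.real (Bl γ ψ q a ∩ (V \ Av γ ψ n)) := by
    rw [← Finset.sum_add_distrib]
    apply Finset.sum_congr rfl; intro q hq
    have h2 : ∀ a ∈ Finset.range q, volume.real (Bl γ ψ q a ∩ V) =
        volume.real (Bl γ ψ q a ∩ (V \ Av γ ψ n)) := by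
      intro a ha
      congr 1
      ext x
      constructor
      · rintro ⟨h3, h4⟩
        refine ⟨h3, h4, ?_⟩
        intro hxE
        have h5 := hxE.2
        rw [Set.mem_iInter] at h5
        have h6 := h5 q
        rw [Set.mem_iInter] at h6
        have h7 := h6 (hTn q hq)
        rw [Set.mem_iInter] at h7
        have h8 := h7 a
        rw [Set.mem_iInter] at h8
        exact h8 (Finset.mem_range.mp ha) h3
      · rintro ⟨h3, h4, _⟩
        exact ⟨h3, h4⟩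
    rw [Finset.sum_congr rfl h2]
    rw [Finset.sum_sdiff]
    unfold Gd
    exact Finset.filter_subset _ _
  rw [hupper] at hlower
  have hfin : Ψ * e ≤ 4 / c * Ψ + ((18 / e * Ψ) / 2 * (e ^ 2 / 72) +
      1 / (2 * (18 / e * Ψ)) * (9 * Ψ ^ 2)) := hlower.trans (add_le_add hbad hgood)
  have e1 : 4 / c * Ψ + ((18 / e * Ψ) / 2 * (e ^ 2 / 72) +
      1 / (2 * (18 / e * Ψ)) * (9 * Ψ ^ 2)) = Ψ * (e * (5 / 8)) := by
    rw [hc]
    field_simp
    ring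
  rw [e1] at hfin
  have h2 := le_of_mul_le_mul_left hfin hΨpos
  linarith

end Vale.Agent.H4.IDS
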