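import Vale.Agent.H4.IDS.Energy

namespace Vale.Agent.H4.IDS

open Finset MeasureTheory

/-- AM-GM form of the second moment inequality. -/
lemma integral_ineq {ι : Type*} (s : Finset ι) (B : ι → Set ℝ) (D : Set ℝ) (hD : MeasurableSet D)
    (hDf : volume D ≠ ⊤) (hB : ∀ i, MeasurableSet (B i)) (hBf : ∀ i, volume (B i) ≠ ⊤)
    (L : ℝ) (hL : 0 < L) :
    ∑ i ∈ s, volume.real (B i ∩ D) ≤ L / 2 * volume.real D +
      1 / (2 * L) * ∑ i ∈ s, ∑ j ∈ s, volume.real (B i ∩ B j) := by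
  classical
  have hint : ∀ (A : Set ℝ), MeasurableSet A → volume A ≠ ⊤ →
      Integrable (A.indicator (fun _ => (1 : ℝ))) volume := by
    intro A hA hAf
    exact (integrable_indicator_iff hA).mpr (integrableOn_const (hs := hAf))
  have hval : ∀ (A : Set ℝ), MeasurableSet A →
      ∫ x, A.indicator (fun _ => (1 : ℝ)) x = volume.real A := by
    intro A hA
    rw [integral_indicator hA]; simp
  have hBD : ∀ i, volume (B i ∩ D) ≠ ⊤ := fun i =>
    ne_top_of_le_ne_top (hBf i) (measure_mono Set.inter_subset_left)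
  have hBB : ∀ i j, volume (B i ∩ B j) ≠ ⊤ := fun i j =>
    ne_top_of_le_ne_top (hBf i) (measure_mono Set.inter_subset_left)
  have h1 : ∑ i ∈ s, volume.real (B i ∩ D) =
      ∫ x, ∑ i ∈ s, (B i ∩ D).indicator (fun _ => (1 : ℝ)) x := by
    rw [integral_finsetSum _ (fun i _ => hint _ ((hB i).inter hD) (hBD i))]
    apply Finset.sum_congr rfl; intro i _
    rw [hval _ ((hB i).inter hD)]
  have h2 : L / 2 * volume.real D + 1 / (2 * L) * ∑ i ∈ s, ∑ j ∈ s, volume.real (B i ∩ B j) =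
      ∫ x, (L / 2 * D.indicator (fun _ => (1 : ℝ)) x +
        1 / (2 * L) * ∑ i ∈ s, ∑ j ∈ s, (B i ∩ B j).indicator (fun _ => (1 : ℝ)) x) := by
    rw [integral_add ((hint D hD hDf).const_mul _)]
    · rw [integral_const_mul, integral_const_mul, hval D hD]
      congr 1
      rw [integral_finsetSum]
      · congr 1
        apply Finset.sum_congr rfl; intro i _
        rw [integral_finsetSum _ (fun j _ => hint _ ((hB i).inter (hB j)) (hBB i j))]
        apply Finset.sum_congr rfl; intro j _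
        rw [hval _ ((hB i).inter (hB j))]
      · intro i _
        exact integrable_finsetSum _ (fun j _ => hint _ ((hB i).inter (hB j)) (hBB i j))
    · apply Integrable.const_mul
      apply integrable_finsetSum
      intro i _
      exact integrable_finsetSum _ (fun j _ => hint _ ((hB i).inter (hB j)) (hBB i j))
  rw [h1, h2]
  apply integral_mono
  · exact integrable_finsetSum _ (fun i _ => hint _ ((hB i).inter hD) (hBD i))
  · apply Integrable.add ((hint D hD hDf).const_mul _)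
    apply Integrable.const_mul
    apply integrable_finsetSum
    intro i _
    exact integrable_finsetSum _ (fun j _ => hint _ ((hB i).inter (hB j)) (hBB i j))
  · intro x
    simp only
    have e1 : ∑ i ∈ s, ∑ j ∈ s, (B i ∩ B j).indicator (fun _ => (1 : ℝ)) x =
        (∑ i ∈ s, (B i).indicator (fun _ => (1 : ℝ)) x) ^ 2 := by
      rw [sq, Finset.sum_mul_sum]
      apply Finset.sum_congr rfl; intro i _
      apply Finset.sum_congr rfl; intro j _
      by_cases h1 : x ∈ B i <;> by_cases h2 : x ∈ B j <;> simp [h1, h2]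
    rw [e1]
    set N := ∑ i ∈ s, (B i).indicator (fun _ => (1 : ℝ)) x with hN
    by_cases hx : x ∈ D
    · have e2 : ∑ i ∈ s, (B i ∩ D).indicator (fun _ => (1 : ℝ)) x = N := by
        rw [hN]
        apply Finset.sum_congr rfl; intro i _
        by_cases h1 : x ∈ B i <;> simp [h1, hx]
      rw [e2]
      simp only [hx, Set.indicator_of_mem, mul_one]
      have h3 : 0 ≤ (N - L) ^ 2 := sq_nonneg _
      have h4 : N = 1 / (2 * L) * (2 * L * N) := by field_simp
      have h5 : 2 * L * N ≤ L ^ 2 + N ^ 2 := by nlinarith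
      have h6 : 1 / (2 * L) * (2 * L * N) ≤ 1 / (2 * L) * (L ^ 2 + N ^ 2) := by gcongr
      have h7 : 1 / (2 * L) * (L ^ 2 + N ^ 2) = L / 2 + 1 / (2 * L) * N ^ 2 := by field_simp
      linarith
    · have e2 : ∑ i ∈ s, (B i ∩ D).indicator (fun _ => (1 : ℝ)) x = 0 := by
        apply Finset.sum_eq_zero; intro i _
        simp [hx]
      rw [e2]
      simp only [hx, not_false_eq_true, Set.indicator_of_notMem, mul_zero, zero_add]
      positivity

/-- equidistribution of the centres in a grid cell -/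
lemma cell_lower (γ : ℝ) (hγ0 : 0 ≤ γ) (hγ1 : γ < 1) (ψ : ℕ → ℝ) (hψ0 : ∀ q, 0 ≤ ψ q)
    (hψ1 : ∀ q : ℕ, 1 ≤ q → ψ q / q ≤ 1 / (16 * (q : ℝ) ^ 2)) (q : ℕ) (hq : 1 ≤ q)
    (N k : ℕ) (hN : 1 ≤ N) (hk : k < N) :
    ((q : ℝ) / N - 2) * (2 * (ψ q / q)) ≤ ∑ a ∈ Finset.range q,
      volume.real (Bl γ ψ q a ∩ Set.Ico ((k : ℝ) / N) (((k : ℝ) + 1) / N)) := by
  classical
  have hqR : (0 : ℝ) < q := by exact_mod_cast hq
  have hq1 : (1 : ℝ) ≤ q := by exact_mod_cast hq
  have hNR : (0 : ℝ) < N := by exact_mod_cast hN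
  have hρ := hψ1 q hq
  have hψq := hψ0 q
  have hψ : ψ q ≤ 1 / 16 := by
    rw [div_le_div_iff₀ hqR (by positivity)] at hρ
    have h1 : (ψ q * 16 * q) * q ≤ 1 * q := by
      calc (ψ q * 16 * q) * q = ψ q * (16 * (q : ℝ) ^ 2) := by ring
        _ ≤ _ := hρ
    have h2 : ψ q * 16 * q ≤ 1 := le_of_mul_le_mul_right h1 hqR
    have h3 : ψ q * 16 * 1 ≤ ψ q * 16 * q := by gcongr
    linarith
  set u : ℝ := q * (k / N) + ψ q - γ with hu
  set w : ℝ := q * ((k + 1) / N) - ψ q - γ with hw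
  have hsub : Finset.Ico ⌈u⌉₊ ⌈w⌉₊ ⊆ Finset.range q := by
    intro a ha
    rw [Finset.mem_Ico] at ha
    rw [Finset.mem_range]
    have h1 : (a : ℝ) < w := Nat.lt_ceil.mp ha.2
    have h2 : w ≤ q := by
      rw [hw]
      have h3 : ((k : ℝ) + 1) / N ≤ 1 := by
        rw [div_le_one hNR]
        exact_mod_cast hk
      nlinarith
    have : (a : ℝ) < q := by linarith
    exact_mod_cast this
  have h1 : ∑ a ∈ Finset.Ico ⌈u⌉₊ ⌈w⌉₊,
      volume.real (Bl γ ψ q a ∩ Set.Ico ((k : ℝ) / N) (((k : ℝ) + 1) / N)) ≤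
      ∑ a ∈ Finset.range q,
      volume.real (Bl γ ψ q a ∩ Set.Ico ((k : ℝ) / N) (((k : ℝ) + 1) / N)) :=
    Finset.sum_le_sum_of_subset_of_nonneg hsub (fun _ _ _ => measureReal_nonneg)
  refine le_trans ?_ h1
  have h2 : ∀ a ∈ Finset.Ico ⌈u⌉₊ ⌈w⌉₊,
      volume.real (Bl γ ψ q a ∩ Set.Ico ((k : ℝ) / N) (((k : ℝ) + 1) / N)) = 2 * (ψ q / q) := by
    intro a ha
    rw [Finset.mem_Ico] at ha
    have h3 : (a : ℝ) < w := Nat.lt_ceil.mp ha.2
    have h4 : u ≤ a := (Nat.le_ceil u).trans (by exact_mod_cast ha.1)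
    have h5 : Bl γ ψ q a ⊆ Set.Ico ((k : ℝ) / N) (((k : ℝ) + 1) / N) := by
      intro x hx
      unfold Bl at hx
      rw [Metric.mem_ball, Real.dist_eq, abs_lt] at hx
      have e1 : ((a : ℝ) + γ) / q * q = a + γ := by field_simp
      have e2 : ψ q / q * q = ψ q := by field_simp
      constructor
      · have : (k : ℝ) / N * q ≤ x * q := by
          have h6 : (((a : ℝ) + γ) / q - ψ q / q) * q ≤ x * q := by
            apply mul_le_mul_of_nonneg_right _ hqR.le; linarith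
          rw [sub_mul, e1, e2] at h6
          rw [hu] at h4
          nlinarith
        exact le_of_mul_le_mul_right this hqR
      · have : x * q < ((k : ℝ) + 1) / N * q := by
          have h6 : x * q < (((a : ℝ) + γ) / q + ψ q / q) * q := by
            apply mul_lt_mul_of_pos_right _ hqR; linarith
          rw [add_mul, e1, e2] at h6
          rw [hw] at h3
          nlinarith
        exact lt_of_mul_lt_mul_right this hqR.le
    rw [Set.inter_eq_left.mpr h5, Bl_vol γ ψ hψ0]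
  rw [Finset.sum_congr rfl h2, Finset.sum_const, nsmul_eq_mul, Nat.card_Ico]
  apply mul_le_mul_of_nonneg_right _ (by positivity)
  have h3 : (⌈u⌉₊ : ℝ) ≤ u + 1 := by
    rcases le_or_gt 0 u with h | h
    · exact (Nat.ceil_lt_add_one h).le
    · rw [Nat.ceil_eq_zero.mpr h.le]
      have : 0 ≤ (q : ℝ) * (k / N) := by positivity
      rw [hu]; push_cast; linarith
  have h4 : w ≤ ⌈w⌉₊ := Nat.le_ceil w
  have h5 : (⌈w⌉₊ : ℝ) - ⌈u⌉₊ ≤ ((⌈w⌉₊ - ⌈u⌉₊ : ℕ) : ℝ) := by
    rw [sub_le_iff_le_add]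
    exact_mod_cast (by omega : ⌈w⌉₊ ≤ ⌈w⌉₊ - ⌈u⌉₊ + ⌈u⌉₊)
  have h6 : w - u = q / N - 2 * ψ q := by
    rw [hw, hu]; field_simp; ring
  linarith

end Vale.Agent.H4.IDS
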