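import Vale.Agent.H4.IDS.Bad

namespace Vale.Agent.H4.IDS

open Finset

/-- combined bound -/
lemma countU (γ : ℝ) (X : ℕ) (hX : 1 ≤ X) (Y : ℝ) (hXY : (X : ℝ) ≤ Y) (τ : ℝ) (hτ : 0 < τ)
    (M : Finset ℤ) (s : ℤ)
    (hM : ∀ m ∈ M, s ≤ m ∧ m ≤ s + X) (hMY : ∀ m ∈ M, 0 < m ∧ (m : ℝ) ≤ Y)
    (k : ℤ → ℤ) (hk : ∀ m ∈ M, |m * γ - k m| < τ)
    (K g R : ℝ) (hK : 0 < K) (hg : 0 < g) (hR : 0 < R)
    (H : ∀ (ν : ℕ) (κ : ℤ), 1 ≤ ν → IsCoprime (ν : ℤ) κ → (∀ m ∈ M, (ν : ℤ) * k m = κ * m) →
        M.Nonempty → (R ≤ K * ν ∨ 1 ≤ K * g * |ν * γ - κ|)) :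
    (M.card : ℝ) ≤ 16 * Y * τ + K * X / R + 2 * K * g * τ + 1 := by
  have hXpos : (0 : ℝ) < X := by exact_mod_cast hX
  have hYpos : 0 < Y := lt_of_lt_of_le hXpos hXY
  have p1 : 0 ≤ K * X / R := by positivity
  have p2 : 0 ≤ 2 * K * g * τ := by positivity
  have p3 : 0 ≤ 16 * Y * τ := by positivity
  rcases counting γ X hX τ hτ M s hM k hk with h | ⟨ν, κ, hν1, hνX, hcop, hδ, hτν, hc1, hc2⟩
  · have : 16 * X * τ ≤ 16 * Y * τ := by gcongr
    linarith
  · have hνpos : (0 : ℝ) < ν := by exact_mod_cast hν1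
    by_cases hδY : 1 / (8 * Y) ≤ |ν * γ - κ|
    · have hpos : 0 < |(ν : ℝ) * γ - κ| := lt_of_lt_of_le (by positivity) hδY
      have h1 : (M.card : ℝ) - 1 ≤ 16 * Y * τ := by
        by_contra hcon
        push Not at hcon
        have : 16 * Y * τ * (1 / (8 * Y)) < (M.card - 1) * |(ν : ℝ) * γ - κ| := by
          calc 16 * Y * τ * (1 / (8 * Y)) ≤ 16 * Y * τ * |(ν : ℝ) * γ - κ| := by
                apply mul_le_mul_of_nonneg_left hδY p3
            _ < _ := by apply mul_lt_mul_of_pos_right hcon hpos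
        have e : 16 * Y * τ * (1 / (8 * Y)) = 2 * τ := by field_simp; norm_num
        linarith
      linarith
    · push Not at hδY
      rcases M.eq_empty_or_nonempty with hem | hne
      · rw [hem]; simp; linarith
      have hD : ∀ m ∈ M, (ν : ℤ) * k m = κ * m := by
        intro m hm
        obtain ⟨hm0, hmY⟩ := hMY m hm
        have hm0' : (0 : ℝ) < m := by exact_mod_cast hm0
        have hlt1 : |(ν : ℝ) * k m - κ * m| < 1 := by
          have e1 : (ν : ℝ) * k m - κ * m = m * (ν * γ - κ) - ν * (m * γ - k m) := by ring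
          rw [e1]
          have e2 := abs_sub ((m : ℝ) * (ν * γ - κ)) (ν * (m * γ - k m))
          rw [abs_mul, abs_mul, abs_of_pos hνpos, abs_of_pos hm0'] at e2
          have e3 : (m : ℝ) * |ν * γ - κ| ≤ 1 / 8 := by
            calc (m : ℝ) * |ν * γ - κ| ≤ Y * (1 / (8 * Y)) := by
                  apply mul_le_mul hmY hδY.le (abs_nonneg _) hYpos.le
              _ = 1 / 8 := by field_simp
          have e4 : (ν : ℝ) * |m * γ - k m| ≤ 1 / 4 := by
            calc (ν : ℝ) * |m * γ - k m| ≤ ν * (1 / (4 * ν)) := by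
                  apply mul_le_mul_of_nonneg_left _ hνpos.le
                  have := hk m hm
                  linarith
              _ = 1 / 4 := by field_simp
          linarith
        have : |(ν : ℤ) * k m - κ * m| < 1 := by exact_mod_cast hlt1
        have := Int.abs_lt_one_iff.mp this
        linarith
      rcases H ν κ hν1 hcop hD hne with h | h
      · have h1 : (X : ℝ) / ν ≤ K * X / R := by
          rw [div_le_div_iff₀ hνpos hR]
          nlinarith
        linarith
      · have hpos : 0 < |(ν : ℝ) * γ - κ| := by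
          by_contra hcon
          have : |(ν : ℝ) * γ - κ| = 0 := le_antisymm (not_lt.mp hcon) (abs_nonneg _)
          rw [this] at h; simp at h; linarith
        have h1 : (M.card : ℝ) - 1 ≤ 2 * K * g * τ := by
          rcases le_or_gt ((M.card : ℝ) - 1) 0 with h0 | h0
          · linarith
          · calc (M.card : ℝ) - 1 ≤ ((M.card : ℝ) - 1) * (K * g * |ν * γ - κ|) := by
                  nlinarith
              _ = K * g * (((M.card : ℝ) - 1) * |ν * γ - κ|) := by ring
              _ ≤ K * g * (2 * τ) := by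
                  apply mul_le_mul_of_nonneg_left hc2 (by positivity)
              _ = _ := by ring
        linarith

/-- number of coincidences for a pair of moduli `g q'`, `g r'`. -/
lemma pair_card (γ ρ : ℝ) (g q' r' : ℕ) (hg : 0 < g) (hq' : 0 < q') (hr' : 0 < r')
    (hcop : Nat.Coprime q' r') (S : Finset (ℕ × ℕ)) (hρ : 0 ≤ ρ)
    (hS : ∀ p ∈ S, p.1 < g * q' ∧ p.2 < g * r' ∧
      |((p.1 : ℝ) + γ) / (g * q' : ℕ) - ((p.2 : ℝ) + γ) / (g * r' : ℕ)| < ρ) :
    (S.card : ℝ) ≤ g * (2 * (g * q' * r' * ρ) + 1) ∧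
    (g * q' * r' * ρ < 1 / 2 → S.card ≤ g) := by
  classical
  set kf : ℕ × ℕ → ℤ := fun p => (q' : ℤ) * p.2 - r' * p.1 with hkf
  have hgR : (0 : ℝ) < g := by exact_mod_cast hg
  have hqR : (0 : ℝ) < q' := by exact_mod_cast hq'
  have hrR : (0 : ℝ) < r' := by exact_mod_cast hr'
  have hkclose : ∀ p ∈ S, |((r' : ℝ) - q') * γ - kf p| < g * q' * r' * ρ := by
    intro p hp
    obtain ⟨_, _, h⟩ := hS p hp
    have e : ((p.1 : ℝ) + γ) / (g * q' : ℕ) - ((p.2 : ℝ) + γ) / (g * r' : ℕ)
        = (((r' : ℝ) - q') * γ - kf p) / (g * q' * r') := by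
      simp only [hkf]; push_cast
      field_simp
      ring
    rw [e, abs_div, abs_of_pos (by positivity : (0 : ℝ) < g * q' * r'), div_lt_iff₀ (by positivity)]
      at h
    linarith
  have hfib : ∀ b ∈ S.image kf, (S.filter (fun a => kf a = b)).card ≤ g := by
    intro b _
    have h : (S.filter (fun a => kf a = b)).card ≤ (Finset.range g).card := by
      apply Finset.card_le_card_of_injOn (fun p => p.1 / q')
      · intro p hp
        simp only [Finset.coe_range, Set.mem_Iio]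
        have hp' := (Finset.mem_filter.mp hp).1
        apply Nat.div_lt_of_lt_mul
        have := (hS p hp').1
        rw [mul_comm]; exact this
      · intro p hp p₂ hp₂ heq
        simp only at heq
        obtain ⟨hp1, hp2⟩ := Finset.mem_filter.mp hp
        obtain ⟨hp₂1, hp₂2⟩ := Finset.mem_filter.mp hp₂
        have hk : (q' : ℤ) * ((p.2 : ℤ) - p₂.2) = r' * ((p.1 : ℤ) - p₂.1) := by
          have : kf p = kf p₂ := by rw [hp2, hp₂2]
          simp only [hkf] at this
          linarith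
        have hdvd : (q' : ℤ) ∣ (p.1 : ℤ) - p₂.1 := by
          have h1 : (q' : ℤ) ∣ r' * ((p.1 : ℤ) - p₂.1) := ⟨_, hk.symm⟩
          have h2 : IsCoprime (q' : ℤ) (r' : ℤ) := Nat.isCoprime_iff_coprime.mpr hcop
          exact h2.dvd_of_dvd_mul_left h1
        have h6 : (p.1 : ℤ) % q' = p₂.1 % q' := (Int.modEq_iff_dvd.mpr hdvd).symm
        have h7 : p.1 % q' = p₂.1 % q' := by exact_mod_cast h6
        have h8 : p.1 = p₂.1 := by
          rw [← Nat.div_add_mod p.1 q', ← Nat.div_add_mod p₂.1 q', heq, h7]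
        have h9 : p.2 = p₂.2 := by
          rw [h8] at hk
          have : (q' : ℤ) * ((p.2 : ℤ) - p₂.2) = 0 := by rw [hk]; ring
          rcases mul_eq_zero.mp this with h | h
          · omega
          · omega
        exact Prod.ext h8 h9
    rwa [Finset.card_range] at h
  have himg := Finset.card_le_mul_card_image (f := kf) S g hfib
  have himgR : (S.card : ℝ) ≤ g * (S.image kf).card := by exact_mod_cast himg
  have hη : 0 ≤ g * q' * r' * ρ := by positivity
  have himg2 : ((S.image kf).card : ℝ) ≤ 2 * (g * q' * r' * ρ) + 1 := by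
    have h := card_le_of_separated (S.image kf) (fun k : ℤ => ((r' : ℝ) - q') * γ - k)
      (g * q' * r' * ρ) 1 one_pos hη ?_ ?_
    · simpa using h
    · intro k hk
      obtain ⟨p, hp, rfl⟩ := Finset.mem_image.mp hk
      exact (hkclose p hp).le
    · intro k _ k' _ hne
      have e : ((r' : ℝ) - q') * γ - k - (((r' : ℝ) - q') * γ - k') = ((k' - k : ℤ) : ℝ) := by
        push_cast; ring
      rw [e]
      have : 1 ≤ |k' - k| := Int.one_le_abs (by omega)
      exact_mod_cast this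
  constructor
  · calc (S.card : ℝ) ≤ g * (S.image kf).card := himgR
      _ ≤ _ := by apply mul_le_mul_of_nonneg_left himg2 hgR.le
  · intro hlt
    have h1 : ((S.image kf).card : ℝ) < 2 := by linarith
    have h2 : (S.image kf).card < 2 := by exact_mod_cast h1
    have h3 : (S.image kf).card ≤ 1 := by omega
    calc S.card ≤ g * (S.image kf).card := himg
      _ ≤ g * 1 := Nat.mul_le_mul_left _ h3
      _ = g := mul_one g

/-- the centre condition: the points `(a+γ)/q` and `(b+γ)/r` are close -/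
def Coin (γ : ℝ) (ψ : ℕ → ℝ) (q a r b : ℕ) : Prop :=
  |((a : ℝ) + γ) / q - ((b : ℝ) + γ) / r| < ψ q / q + ψ r / r

/-- If a close pair is `νk=κm`-aligned, then the numerator `b` is bad unless `ν` is large or
`|νγ-κ|` is not small. -/
lemma aligned_bad (γ K : ℝ) (hK : 0 < K) (g q' r' a b ν : ℕ) (κ : ℤ) (hg : 0 < g)
    (hr' : 0 < r') (hcop : Nat.Coprime q' r')
    (hν : 1 ≤ ν) (hc : IsCoprime (ν : ℤ) κ)
    (hal : (ν : ℤ) * ((q' : ℤ) * b - r' * a) = κ * ((r' : ℤ) - q'))
    (hgood : ¬ BadNum γ K (g * r') b) : (r' : ℝ) ≤ K * ν ∨ 1 ≤ K * g * |ν * γ - κ| := by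
  by_contra hcon
  push Not at hcon
  obtain ⟨h1, h2⟩ := hcon
  apply hgood
  have hdiv : g * r' / g = r' := Nat.mul_div_cancel_left r' hg
  refine ⟨g, ?_, ν, κ, hν, hc, ?_, ?_, ?_⟩
  · rw [Nat.mem_divisors]
    exact ⟨Dvd.intro _ rfl, by positivity⟩
  · rw [hdiv]; exact h1
  · have hgR : (0 : ℝ) < g := by exact_mod_cast hg
    rw [lt_div_iff₀ (by positivity)]
    linarith
  · rw [hdiv]
    have h3 : (q' : ℤ) * (ν * b + κ) = r' * (ν * a + κ) := by linarith
    have h4 : (r' : ℤ) ∣ q' * (ν * b + κ) := ⟨_, h3⟩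
    have h5 : IsCoprime (r' : ℤ) (q' : ℤ) := (Nat.isCoprime_iff_coprime.mpr hcop).symm
    exact h5.dvd_of_dvd_mul_left h4

end Vale.Agent.H4.IDS
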