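import Vale.Agent.H4.IDS.Blocks

namespace Vale.Agent.H4.IDS

open Finset

lemma card_I (γ K : ℝ) (hK : 0 < K) (ψ : ℕ → ℝ) (g r' : ℕ) (hg : 0 < g) (hr' : 0 < r')
    (hψr : ψ (g * r') / (g * r' : ℕ) ≤ 1 / (16 * (g * r' : ℕ) ^ 2)) (S : Finset ℕ)
    (hS : ∀ q' ∈ S, 0 < q' ∧ q' < r' ∧ Nat.Coprime q' r' ∧
      ψ (g * q') / (g * q' : ℕ) ≤ 1 / (16 * (g * r' : ℕ) ^ 2) ∧
      ∃ a b : ℕ, Coin γ ψ (g * q') a (g * r') b ∧ ¬ BadNum γ K (g * r') b) :
    (S.card : ℝ) ≤ 8 * r' / g + 3 * K + Nat.log 2 r' + 1 := by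
  classical
  set L := Nat.log 2 r' with hL
  have hgR : (0 : ℝ) < g := by exact_mod_cast hg
  have hrR : (0 : ℝ) < r' := by exact_mod_cast hr'
  have h1 : S.card = ∑ j ∈ Finset.range (L + 1), (S.filter (fun q' => Nat.log 2 q' = j)).card := by
    apply Finset.card_eq_sum_card_fiberwise
    intro q' hq'
    have := hS q' hq'
    simp only [Finset.coe_range, Set.mem_Iio]
    have : Nat.log 2 q' ≤ L := Nat.log_mono_right this.2.1.le
    omega
  have h2 : (S.card : ℝ) ≤ ∑ j ∈ Finset.range (L + 1), ((4 / g + 3 * K / (2 * r')) * 2 ^ j + 1) := by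
    rw [h1, Nat.cast_sum]
    apply Finset.sum_le_sum
    intro j _
    apply block_I γ K hK ψ g r' hg hr' hψr j
    intro q' hq'
    obtain ⟨h3, h4⟩ := Finset.mem_filter.mp hq'
    obtain ⟨h5, h6, h7, h8, h9⟩ := hS q' h3
    refine ⟨?_, ?_, h6, h7, h8, h9⟩
    · rw [← h4]; exact Nat.pow_log_le_self 2 (by omega)
    · rw [← h4]; exact Nat.lt_pow_succ_log_self (by omega) q'
  refine h2.trans ?_
  rw [Finset.sum_add_distrib, ← Finset.mul_sum, geom_sum_eq (by norm_num)]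
  simp only [Finset.sum_const, Finset.card_range, nsmul_eq_mul, mul_one]
  have h3 : ((2 : ℝ) ^ (L + 1) - 1) / (2 - 1) ≤ 2 * r' := by
    have h4 : 2 ^ L ≤ r' := Nat.pow_log_le_self 2 (by omega)
    have h5 : (2 : ℝ) ^ L ≤ r' := by exact_mod_cast h4
    rw [pow_succ]; norm_num; linarith
  have h4 : (4 / g + 3 * K / (2 * r')) * (((2 : ℝ) ^ (L + 1) - 1) / (2 - 1))
      ≤ (4 / g + 3 * K / (2 * r')) * (2 * r') := by
    apply mul_le_mul_of_nonneg_left h3 (by positivity)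
  have h5 : (4 / g + 3 * K / (2 * r')) * (2 * (r' : ℝ)) = 8 * r' / g + 3 * K := by
    field_simp; ring
  push_cast
  linarith

lemma sum_II (γ K : ℝ) (hK : 0 < K) (ψ : ℕ → ℝ) (hψ0 : ∀ q, 0 ≤ ψ q) (g q' : ℕ) (hg : 0 < g)
    (hq' : 0 < q') (S : Finset ℕ)
    (hS : ∀ r' ∈ S, q' < r' ∧ r' < g * q' ∧ Nat.Coprime q' r' ∧
      ψ (g * r') / (g * r' : ℕ) ≤ 1 / (16 * (g * r' : ℕ) ^ 2) ∧
      1 / (16 * (g * r' : ℕ) ^ 2) < ψ (g * q') / (g * q' : ℕ) ∧
      ∃ a b : ℕ, Coin γ ψ (g * q') a (g * r') b ∧ ¬ BadNum γ K (g * r') b) :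
    ∑ r' ∈ S, (g : ℝ) / (8 * ((g * r' : ℕ) : ℝ) ^ 2) ≤
      ψ (g * q') * (16 * (Nat.log 2 g + 2) / g + (32 / 3 * (K + 1) + 4 * K) / q') := by
  classical
  have hgR : (0 : ℝ) < g := by exact_mod_cast hg
  have hqR : (0 : ℝ) < q' := by exact_mod_cast hq'
  have hψq := hψ0 (g * q')
  set ψq := ψ (g * q') with hψqdef
  set J := S.image (fun r' => Nat.log 2 r') with hJ
  have h1 : ∑ r' ∈ S, (g : ℝ) / (8 * ((g * r' : ℕ) : ℝ) ^ 2) =
      ∑ j ∈ J, ∑ r' ∈ S.filter (fun r' => Nat.log 2 r' = j), (g : ℝ) / (8 * ((g * r' : ℕ) : ℝ) ^ 2) := by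
    rw [Finset.sum_fiberwise_of_maps_to]
    intro r' hr'
    exact Finset.mem_image_of_mem _ hr'
  have h2 : ∀ j ∈ J, ∑ r' ∈ S.filter (fun r' => Nat.log 2 r' = j),
      (g : ℝ) / (8 * ((g * r' : ℕ) : ℝ) ^ 2) ≤
      16 * ψq / g + (K + 1) / (8 * g) * (1 / 4) ^ j + K * ψq * (1 / 2) ^ j := by
    intro j _
    have hb := block_II γ K hK ψ hψ0 g q' hg hq' j (S.filter (fun r' => Nat.log 2 r' = j)) ?_
    · have h3 : ∀ r' ∈ S.filter (fun r' => Nat.log 2 r' = j),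
          (g : ℝ) / (8 * ((g * r' : ℕ) : ℝ) ^ 2) ≤ 1 / (8 * g * (2 ^ j) ^ 2) := by
        intro r' hr'
        obtain ⟨h4, h5⟩ := Finset.mem_filter.mp hr'
        have h6 := (hS r' h4).1
        have h7 : 2 ^ j ≤ r' := by rw [← h5]; exact Nat.pow_log_le_self 2 (by omega)
        have h8 : (2 : ℝ) ^ j ≤ r' := by exact_mod_cast h7
        have h9 : (0 : ℝ) < r' := by exact_mod_cast (by omega : 0 < r')
        rw [div_le_div_iff₀ (by push_cast; positivity) (by positivity)]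
        push_cast
        have h10 : ((2 : ℝ) ^ j) ^ 2 ≤ (r' : ℝ) ^ 2 := by gcongr
        have e1 : (g : ℝ) * (8 * g * (2 ^ j) ^ 2) = 8 * g ^ 2 * (2 ^ j) ^ 2 := by ring
        have e2 : (1 : ℝ) * (8 * (g * r') ^ 2) = 8 * g ^ 2 * r' ^ 2 := by ring
        rw [e1, e2]
        gcongr
      have h4 := Finset.sum_le_card_nsmul _ _ _ h3
      rw [nsmul_eq_mul] at h4
      refine h4.trans ?_
      calc ((S.filter (fun r' => Nat.log 2 r' = j)).card : ℝ) * (1 / (8 * g * (2 ^ j) ^ 2))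
          ≤ (128 * (2 ^ j) ^ 2 * ψ (g * q') + K + 8 * K * g * 2 ^ j * ψ (g * q') + 1)
            * (1 / (8 * g * (2 ^ j) ^ 2)) := by
            apply mul_le_mul_of_nonneg_right hb (by positivity)
        _ = _ := by
            rw [← hψqdef]
            have e1 : ((1 : ℝ) / 4) ^ j = 1 / ((2 : ℝ) ^ j) ^ 2 := by
              rw [one_div_pow, ← pow_mul, mul_comm j 2, pow_mul]; norm_num
            have e2 : ((1 : ℝ) / 2) ^ j = 1 / (2 : ℝ) ^ j := by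
              rw [one_div_pow]
            rw [e1, e2]
            have : (2 : ℝ) ^ j ≠ 0 := by positivity
            field_simp
            ring
    · intro r' hr'
      obtain ⟨h4, h5⟩ := Finset.mem_filter.mp hr'
      obtain ⟨a1, a2, a3, a4, a5, a6⟩ := hS r' h4
      refine ⟨?_, ?_, a1, a3, a4, a5, a6⟩
      · rw [← h5]; exact Nat.pow_log_le_self 2 (by omega)
      · rw [← h5]; exact Nat.lt_pow_succ_log_self (by omega) r'
  rw [h1]
  refine (Finset.sum_le_sum h2).trans ?_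
  rw [Finset.sum_add_distrib, Finset.sum_add_distrib, ← Finset.mul_sum, ← Finset.mul_sum,
    Finset.sum_const, nsmul_eq_mul]
  -- the three pieces
  have hJcard : (J.card : ℝ) ≤ Nat.log 2 g + 2 := by
    have := card_log_le J g ?_
    · exact_mod_cast this
    · intro i hi j hj
      obtain ⟨r₁, hr₁, rfl⟩ := Finset.mem_image.mp hi
      obtain ⟨r₂, hr₂, rfl⟩ := Finset.mem_image.mp hj
      obtain ⟨a1, a2, _⟩ := hS r₁ hr₁
      obtain ⟨b1, b2, _⟩ := hS r₂ hr₂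
      have c1 : 2 ^ Nat.log 2 r₂ ≤ r₂ := Nat.pow_log_le_self 2 (by omega)
      have c2 : r₁ < 2 ^ (Nat.log 2 r₁ + 1) := Nat.lt_pow_succ_log_self (by omega) r₁
      rw [pow_succ] at c2
      calc 2 ^ Nat.log 2 r₂ ≤ r₂ := c1
        _ < g * q' := b2
        _ ≤ g * (2 ^ Nat.log 2 r₁ * 2) := by
            apply Nat.mul_le_mul_left; omega
        _ = 2 * g * 2 ^ Nat.log 2 r₁ := by ring
  have hA : ∑ j ∈ J, ((1 : ℝ) / 4) ^ j ≤ (64 * g * ψq / q') / (1 - 1 / 4) := by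
    apply geom_le J (1 / 4) (by norm_num) (by norm_num) _ (by positivity)
    intro j hj
    obtain ⟨r₁, hr₁, rfl⟩ := Finset.mem_image.mp hj
    obtain ⟨a1, a2, a3, a4, a5, _⟩ := hS r₁ hr₁
    have c2 : r₁ < 2 ^ (Nat.log 2 r₁ + 1) := Nat.lt_pow_succ_log_self (by omega) r₁
    rw [pow_succ] at c2
    have c3 : (r₁ : ℝ) < 2 ^ Nat.log 2 r₁ * 2 := by exact_mod_cast c2
    have hr1R : (0 : ℝ) < r₁ := by exact_mod_cast (by omega : 0 < r₁)
    set t : ℝ := 2 ^ Nat.log 2 r₁ with ht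
    have ht0 : 0 < t := by positivity
    have e1 : ((1 : ℝ) / 4) ^ Nat.log 2 r₁ = 1 / t ^ 2 := by
      rw [ht, one_div_pow, ← pow_mul, mul_comm _ 2, pow_mul]; norm_num
    rw [e1]
    push_cast at a5
    rw [div_lt_div_iff₀ (by positivity) (by positivity)] at a5
    rw [div_le_div_iff₀ (by positivity) (by positivity)]
    -- a5 : 1 * (g q') < ψq * (16 (g r₁)^2)
    have h5 : (r₁ : ℝ) ^ 2 ≤ 4 * t ^ 2 := by nlinarith
    have h6 : (g : ℝ) * q' < g * (64 * g * ψq * t ^ 2) := by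
      calc (g : ℝ) * q' < ψq * (16 * (g * r₁) ^ 2) := by linarith
        _ = 16 * g ^ 2 * ψq * r₁ ^ 2 := by ring
        _ ≤ 16 * g ^ 2 * ψq * (4 * t ^ 2) := by gcongr
        _ = _ := by ring
    have h7 := lt_of_mul_lt_mul_left h6 hgR.le
    linarith
  have hB : ∑ j ∈ J, ((1 : ℝ) / 2) ^ j ≤ (2 / q') / (1 - 1 / 2) := by
    apply geom_le J (1 / 2) (by norm_num) (by norm_num) _ (by positivity)
    intro j hj
    obtain ⟨r₁, hr₁, rfl⟩ := Finset.mem_image.mp hj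
    obtain ⟨a1, _⟩ := hS r₁ hr₁
    have c2 : r₁ < 2 ^ (Nat.log 2 r₁ + 1) := Nat.lt_pow_succ_log_self (by omega) r₁
    rw [pow_succ] at c2
    have c3 : (r₁ : ℝ) < 2 ^ Nat.log 2 r₁ * 2 := by exact_mod_cast c2
    have c4 : (q' : ℝ) ≤ r₁ := by exact_mod_cast a1.le
    rw [one_div_pow, div_le_div_iff₀ (by positivity) (by positivity)]
    linarith
  have p1 : (J.card : ℝ) * (16 * ψq / g) ≤ (Nat.log 2 g + 2) * (16 * ψq / g) := by
    apply mul_le_mul_of_nonneg_right hJcard (by positivity)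
  have p2 : (K + 1) / (8 * g) * ∑ j ∈ J, ((1 : ℝ) / 4) ^ j
      ≤ (K + 1) / (8 * g) * ((64 * g * ψq / q') / (1 - 1 / 4)) := by
    apply mul_le_mul_of_nonneg_left hA (by positivity)
  have p3 : K * ψq * ∑ j ∈ J, ((1 : ℝ) / 2) ^ j ≤ K * ψq * ((2 / q') / (1 - 1 / 2)) := by
    apply mul_le_mul_of_nonneg_left hB (by positivity)
  have e : (Nat.log 2 g + 2) * (16 * ψq / g) + (K + 1) / (8 * g) * ((64 * g * ψq / q') / (1 - 1 / 4))
      + K * ψq * ((2 / q') / (1 - 1 / 2)) =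
      ψq * (16 * (Nat.log 2 g + 2) / g + (32 / 3 * (K + 1) + 4 * K) / q') := by
    field_simp
    ring
  linarith

end Vale.Agent.H4.IDS
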