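import Vale.Agent.H4.IDS.Sums

namespace Vale.Agent.H4.IDS

open Finset

open Classical in
/-- number of coincidences `(a,b)` with `b` good -/
noncomputable def Cs (γ K : ℝ) (ψ : ℕ → ℝ) (q r : ℕ) : ℕ :=
  (((Finset.range q) ×ˢ (Finset.range r)).filter
    (fun p : ℕ × ℕ => Coin γ ψ q p.1 r p.2 ∧ ¬ BadNum γ K r p.2)).card

lemma Cs_exists {γ K : ℝ} {ψ : ℕ → ℝ} {q r : ℕ} (h : Cs γ K ψ q r ≠ 0) :
    ∃ a b : ℕ, Coin γ ψ q a r b ∧ ¬ BadNum γ K r b := by
  classical
  unfold Cs at h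
  rw [Finset.card_ne_zero] at h
  obtain ⟨p, hp⟩ := h
  exact ⟨p.1, p.2, (Finset.mem_filter.mp hp).2⟩

lemma Cs_le (γ K : ℝ) (ψ : ℕ → ℝ) (hψ0 : ∀ q, 0 ≤ ψ q) (g q' r' : ℕ) (hg : 0 < g) (hq' : 0 < q')
    (hr' : 0 < r') (hcop : Nat.Coprime q' r') :
    (Cs γ K ψ (g * q') (g * r') : ℝ) ≤ g * (2 * (r' * ψ (g * q') + q' * ψ (g * r')) + 1) ∧
    (r' * ψ (g * q') + q' * ψ (g * r') < 1 / 2 → Cs γ K ψ (g * q') (g * r') ≤ g) := by
  classical
  have hgR : (0 : ℝ) < g := by exact_mod_cast hg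
  have hqR : (0 : ℝ) < q' := by exact_mod_cast hq'
  have hrR : (0 : ℝ) < r' := by exact_mod_cast hr'
  have h := pair_card γ (ψ (g * q') / (g * q' : ℕ) + ψ (g * r') / (g * r' : ℕ)) g q' r' hg hq' hr'
    hcop (((Finset.range (g * q')) ×ˢ (Finset.range (g * r'))).filter
    (fun p : ℕ × ℕ => Coin γ ψ (g * q') p.1 (g * r') p.2 ∧ ¬ BadNum γ K (g * r') p.2))
    (by have := hψ0 (g * q'); have := hψ0 (g * r'); positivity) ?_
  · have e : (g : ℝ) * q' * r' * (ψ (g * q') / (g * q' : ℕ) + ψ (g * r') / (g * r' : ℕ))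
        = r' * ψ (g * q') + q' * ψ (g * r') := by
      push_cast; field_simp
    rw [e] at h
    exact h
  · intro p hp
    obtain ⟨h1, h2, _⟩ := Finset.mem_filter.mp hp
    rw [Finset.mem_product, Finset.mem_range, Finset.mem_range] at h1
    exact ⟨h1.1, h1.2, h2⟩

/-- far pairs -/
lemma far_sum (T : Finset ℕ) (hT : ∀ q ∈ T, 1 ≤ q) (r : ℕ) (hr : 1 ≤ r) :
    ∑ q ∈ T.filter (fun q => q < r ∧ Nat.gcd q r * q ≤ r), (Nat.gcd q r : ℝ) ≤ r * F r := by
  classical
  set S := T.filter (fun q => q < r ∧ Nat.gcd q r * q ≤ r) with hS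
  have h1 : ∑ q ∈ S, (Nat.gcd q r : ℝ) =
      ∑ g ∈ r.divisors, ∑ q ∈ S.filter (fun q => Nat.gcd q r = g), (Nat.gcd q r : ℝ) := by
    rw [Finset.sum_fiberwise_of_maps_to]
    intro q hq
    rw [Nat.mem_divisors]
    exact ⟨Nat.gcd_dvd_right q r, by omega⟩
  rw [h1]
  have h2 : ∀ g ∈ r.divisors, ∑ q ∈ S.filter (fun q => Nat.gcd q r = g), (Nat.gcd q r : ℝ)
      ≤ ((r / g : ℕ) : ℝ) := by
    intro g hg
    have hgd : g ∣ r := Nat.dvd_of_mem_divisors hg
    have hg0 : 0 < g := Nat.pos_of_mem_divisors hg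
    have h3 : ∀ q ∈ S.filter (fun q => Nat.gcd q r = g), (Nat.gcd q r : ℝ) ≤ (g : ℝ) := by
      intro q hq
      rw [(Finset.mem_filter.mp hq).2]
    refine (Finset.sum_le_card_nsmul _ _ _ h3).trans ?_
    rw [nsmul_eq_mul]
    have h4 : (S.filter (fun q => Nat.gcd q r = g)).card ≤ r / g / g := by
      have : (S.filter (fun q => Nat.gcd q r = g)).card ≤ (Finset.Icc 1 (r / g / g)).card := by
        apply Finset.card_le_card_of_injOn (fun q => q / g)
        · intro q hq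
          obtain ⟨h5, h6⟩ := Finset.mem_filter.mp hq
          obtain ⟨h7, h8, h9⟩ := Finset.mem_filter.mp h5
          have hq1 := hT q h7
          have hgq : g ∣ q := by rw [← h6]; exact Nat.gcd_dvd_left q r
          rw [h6] at h9
          simp only [Finset.coe_Icc, Set.mem_Icc]
          constructor
          · exact Nat.div_pos (Nat.le_of_dvd (by omega) hgq) hg0
          · apply Nat.div_le_div_right
            rw [Nat.le_div_iff_mul_le hg0]
            linarith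
        · intro q hq q₂ hq₂ he
          have h6 := (Finset.mem_filter.mp hq).2
          have h6' := (Finset.mem_filter.mp hq₂).2
          have hgq : g ∣ q := by rw [← h6]; exact Nat.gcd_dvd_left q r
          have hgq' : g ∣ q₂ := by rw [← h6']; exact Nat.gcd_dvd_left q₂ r
          simp only at he
          rw [← Nat.div_mul_cancel hgq, ← Nat.div_mul_cancel hgq', he]
      rwa [Nat.card_Icc, Nat.add_sub_cancel] at this
    have h5 : (S.filter (fun q => Nat.gcd q r = g)).card * g ≤ r / g := by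
      calc _ ≤ r / g / g * g := Nat.mul_le_mul_right _ h4
        _ ≤ r / g := Nat.div_mul_le_self _ _
    exact_mod_cast h5
  refine (Finset.sum_le_sum h2).trans ?_
  rw [sum_div_eq]
  apply mul_le_mul_of_nonneg_left (sum_inv_le_F r) (by positivity)

/-- sum over close pairs of type I, fixed larger modulus `r` -/
lemma sum_I (γ K : ℝ) (hK : 1 ≤ K) (ψ : ℕ → ℝ) (hψ0 : ∀ q, 0 ≤ ψ q)
    (hψ1 : ∀ q : ℕ, 1 ≤ q → ψ q / q ≤ 1 / (16 * (q : ℝ) ^ 2))
    (T : Finset ℕ) (hT : ∀ q ∈ T, 1 ≤ q) (r : ℕ) (hr : 1 ≤ r) :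
    ∑ q ∈ T.filter (fun q => q < r ∧ r < Nat.gcd q r * q ∧
      ψ q / q ≤ 1 / (16 * (r : ℝ) ^ 2)), (Cs γ K ψ q r : ℝ) ≤ 14 * K * r * F r := by
  classical
  set S := T.filter (fun q => q < r ∧ r < Nat.gcd q r * q ∧
      ψ q / q ≤ 1 / (16 * (r : ℝ) ^ 2)) with hS
  have hrR : (0 : ℝ) < r := by exact_mod_cast hr
  have h1 : ∑ q ∈ S, (Cs γ K ψ q r : ℝ) =
      ∑ g ∈ r.divisors, ∑ q ∈ S.filter (fun q => Nat.gcd q r = g), (Cs γ K ψ q r : ℝ) := by
    rw [Finset.sum_fiberwise_of_maps_to]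
    intro q hq
    rw [Nat.mem_divisors]
    exact ⟨Nat.gcd_dvd_right q r, by omega⟩
  rw [h1]
  have h2 : ∀ g ∈ r.divisors, ∑ q ∈ S.filter (fun q => Nat.gcd q r = g), (Cs γ K ψ q r : ℝ)
      ≤ 8 * ((r / g : ℕ) : ℝ) + r * ((3 * K + 1) * (1 / ((r / g : ℕ) : ℝ)) +
        (Nat.log 2 (r / g) : ℝ) / ((r / g : ℕ) : ℝ)) := by
    intro g hg
    have hgd : g ∣ r := Nat.dvd_of_mem_divisors hg
    have hg0 : 0 < g := Nat.pos_of_mem_divisors hg
    have hgR : (0 : ℝ) < g := by exact_mod_cast hg0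
    obtain ⟨r', hrr⟩ := hgd
    have hr'0 : 0 < r' := by
      apply Nat.pos_of_ne_zero; rintro rfl; simp at hrr; omega
    have hr'R : (0 : ℝ) < r' := by exact_mod_cast hr'0
    have hdiv : r / g = r' := by rw [hrr]; exact Nat.mul_div_cancel_left r' hg0
    rw [hdiv]
    -- the set of q' with nonzero contribution
    set S' := (S.filter (fun q => Nat.gcd q r = g)).filter (fun q => Cs γ K ψ q r ≠ 0) with hS'
    have hsum : ∑ q ∈ S.filter (fun q => Nat.gcd q r = g), (Cs γ K ψ q r : ℝ)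
        = ∑ q ∈ S', (Cs γ K ψ q r : ℝ) := by
      exact (Finset.sum_filter_of_ne (s := S.filter (fun q => Nat.gcd q r = g))
        (fun q _ h => by intro h0; apply h; rw [h0]; simp)).symm
    have hmem : ∀ q ∈ S', ∃ q' : ℕ, q = g * q' ∧ 0 < q' ∧ q' < r' ∧ Nat.Coprime q' r' ∧
        r' < g * q' ∧
        ψ (g * q') / (g * q' : ℕ) ≤ 1 / (16 * (g * r' : ℕ) ^ 2) ∧
        Cs γ K ψ q r ≠ 0 := by
      intro q hq
      obtain ⟨h3, h4⟩ := Finset.mem_filter.mp hq
      obtain ⟨h5, h6⟩ := Finset.mem_filter.mp h3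
      obtain ⟨h7, h8, h9, h10⟩ := Finset.mem_filter.mp h5
      have hq1 := hT q h7
      have hgq : g ∣ q := by rw [← h6]; exact Nat.gcd_dvd_left q r
      obtain ⟨q', hqq⟩ := hgq
      refine ⟨q', hqq, ?_, ?_, ?_, ?_, ?_, h4⟩
      · apply Nat.pos_of_ne_zero; rintro rfl; simp at hqq; omega
      · rw [hqq, hrr] at h8
        exact Nat.lt_of_mul_lt_mul_left h8
      · rw [hqq, hrr, Nat.gcd_mul_left] at h6
        have : Nat.gcd q' r' = 1 := by
          have h11 : g * Nat.gcd q' r' = g * 1 := by rw [h6]; ring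
          exact Nat.eq_of_mul_eq_mul_left hg0 h11
        exact this
      · rw [h6, hqq, hrr] at h9
        have : g * r' < g * (g * q') := h9
        exact Nat.lt_of_mul_lt_mul_left this
      · rw [← hqq, ← hrr]; exact h10
    have hCs : ∀ q ∈ S', (Cs γ K ψ q r : ℝ) ≤ g := by
      intro q hq
      obtain ⟨q', hqq, hq'0, hq'r, hcop, hclose, hρ, _⟩ := hmem q hq
      have hq'R : (0 : ℝ) < q' := by exact_mod_cast hq'0
      have h3 := (Cs_le γ K ψ hψ0 g q' r' hg0 hq'0 hr'0 hcop).2 ?_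
      · rw [← hqq, ← hrr] at h3
        exact_mod_cast h3
      · have a1 := hψ1 (g * q') (by rw [← hqq]; have := hT q (Finset.mem_filter.mp (Finset.mem_filter.mp (Finset.mem_filter.mp hq).1).1).1; exact this)
        have a2 := hψ1 (g * r') (by rw [← hrr]; exact hr)
        have p1 : (0 : ℝ) < ((g * q' : ℕ) : ℝ) := by positivity
        have p2 : (0 : ℝ) < ((g * r' : ℕ) : ℝ) := by positivity
        rw [div_le_div_iff₀ p1 (by positivity)] at a1
        rw [div_le_div_iff₀ p2 (by positivity)] at a2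
        -- ψ(gq') * 16 gq' ≤ 1
        have b1 : ψ (g * q') * (16 * ((g * q' : ℕ) : ℝ)) ≤ 1 := by
          have : ψ (g * q') * (16 * ((g * q' : ℕ) : ℝ)) * ((g * q' : ℕ) : ℝ) ≤ 1 * ((g * q' : ℕ) : ℝ) := by
            calc _ = ψ (g * q') * (16 * ((g * q' : ℕ) : ℝ) ^ 2) := by ring
              _ ≤ _ := a1
          exact le_of_mul_le_mul_right this p1
        have b2 : ψ (g * r') * (16 * ((g * r' : ℕ) : ℝ)) ≤ 1 := by
          have : ψ (g * r') * (16 * ((g * r' : ℕ) : ℝ)) * ((g * r' : ℕ) : ℝ) ≤ 1 * ((g * r' : ℕ) : ℝ) := by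
            calc _ = ψ (g * r') * (16 * ((g * r' : ℕ) : ℝ) ^ 2) := by ring
              _ ≤ _ := a2
          exact le_of_mul_le_mul_right this p2
        have c1 : (r' : ℝ) * ψ (g * q') ≤ 1 / 16 := by
          have : (r' : ℝ) ≤ ((g * q' : ℕ) : ℝ) := by exact_mod_cast hclose.le
          have := hψ0 (g * q')
          nlinarith
        have c2 : (q' : ℝ) * ψ (g * r') ≤ 1 / 16 := by
          have : (q' : ℝ) ≤ ((g * r' : ℕ) : ℝ) := by
            have : q' ≤ g * r' := by nlinarith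
            exact_mod_cast this
          have := hψ0 (g * r')
          nlinarith
        linarith
    have hcard : (S'.card : ℝ) ≤ 8 * r' / g + 3 * K + Nat.log 2 r' + 1 := by
      have hinj : Set.InjOn (fun q => q / g) S' := by
        intro q hq q₂ hq₂ he
        obtain ⟨q', hqq, _⟩ := hmem q hq
        obtain ⟨q₂', hqq₂, _⟩ := hmem q₂ hq₂
        simp only at he
        rw [hqq, hqq₂, Nat.mul_div_cancel_left _ hg0, Nat.mul_div_cancel_left _ hg0] at he
        rw [hqq, hqq₂, he]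
      rw [← Finset.card_image_of_injOn hinj]
      apply card_I γ K (by linarith) ψ g r' hg0 hr'0 (by rw [← hrr]; exact hψ1 r hr)
      intro q' hq'
      obtain ⟨q, hq, rfl⟩ := Finset.mem_image.mp hq'
      obtain ⟨q', hqq, h3, h4, h5, h6, h7, h8⟩ := hmem q hq
      have e : q / g = q' := by rw [hqq]; exact Nat.mul_div_cancel_left _ hg0
      simp only [e]
      refine ⟨h3, h4, h5, h7, ?_⟩
      rw [hqq, hrr] at h8
      exact Cs_exists h8
    rw [hsum]
    calc ∑ q ∈ S', (Cs γ K ψ q r : ℝ) ≤ S'.card • (g : ℝ) := Finset.sum_le_card_nsmul _ _ _ hCs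
      _ = S'.card * (g : ℝ) := by rw [nsmul_eq_mul]
      _ ≤ (8 * r' / g + 3 * K + Nat.log 2 r' + 1) * g := by
          apply mul_le_mul_of_nonneg_right hcard hgR.le
      _ = _ := by
          rw [hrr]; push_cast
          field_simp
          ring
  refine (Finset.sum_le_sum h2).trans ?_
  rw [Finset.sum_add_distrib, ← Finset.mul_sum, ← Finset.mul_sum, Finset.sum_add_distrib,
    ← Finset.mul_sum, sum_div_eq,
    Nat.sum_div_divisors r (fun d : ℕ => 1 / (d : ℝ)),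
    Nat.sum_div_divisors r (fun d : ℕ => (Nat.log 2 d : ℝ) / (d : ℝ))]
  have hF := sum_inv_le_F r
  have hF2 := sum_log_div_le_F r
  have hF1 := one_le_F hr
  have hb : (3 * K + 1) * ∑ d ∈ r.divisors, 1 / (d : ℝ) + ∑ d ∈ r.divisors,
      (Nat.log 2 d : ℝ) / (d : ℝ) ≤ (3 * K + 1) * F r + 2 * F r := by
    apply add_le_add _ hF2
    apply mul_le_mul_of_nonneg_left hF (by linarith)
  calc _ ≤ 8 * (r * F r) + r * ((3 * K + 1) * F r + 2 * F r) := by
        apply add_le_add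
        · gcongr
        · gcongr
    _ ≤ 14 * K * r * F r := by
        have : 0 ≤ (r : ℝ) * F r := by positivity
        nlinarith

/-- sum over close pairs of type II, fixed smaller modulus `q` -/
lemma sum_II_total (γ K : ℝ) (hK : 1 ≤ K) (ψ : ℕ → ℝ) (hψ0 : ∀ q, 0 ≤ ψ q)
    (hψ1 : ∀ q : ℕ, 1 ≤ q → ψ q / q ≤ 1 / (16 * (q : ℝ) ^ 2))
    (T : Finset ℕ) (q : ℕ) (hq : 1 ≤ q) :
    ∑ r ∈ T.filter (fun r => q < r ∧ r < Nat.gcd q r * q ∧
      1 / (16 * (r : ℝ) ^ 2) < ψ q / q), (1 / (8 * (r : ℝ) ^ 2)) * (Cs γ K ψ q r : ℝ)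
      ≤ 90 * K * ψ q * F q := by
  classical
  set S := T.filter (fun r => q < r ∧ r < Nat.gcd q r * q ∧
      1 / (16 * (r : ℝ) ^ 2) < ψ q / q) with hS
  have hqR : (0 : ℝ) < q := by exact_mod_cast hq
  have h1 : ∑ r ∈ S, (1 / (8 * (r : ℝ) ^ 2)) * (Cs γ K ψ q r : ℝ) =
      ∑ g ∈ q.divisors, ∑ r ∈ S.filter (fun r => Nat.gcd q r = g),
        (1 / (8 * (r : ℝ) ^ 2)) * (Cs γ K ψ q r : ℝ) := by
    rw [Finset.sum_fiberwise_of_maps_to]
    intro r hr
    rw [Nat.mem_divisors]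
    exact ⟨Nat.gcd_dvd_left q r, by omega⟩
  rw [h1]
  have h2 : ∀ g ∈ q.divisors, ∑ r ∈ S.filter (fun r => Nat.gcd q r = g),
        (1 / (8 * (r : ℝ) ^ 2)) * (Cs γ K ψ q r : ℝ)
      ≤ ψ q * ((16 * ((Nat.log 2 g : ℝ) / g) + 32 * (1 / (g : ℝ))) +
        (32 / 3 * (K + 1) + 4 * K) * (1 / ((q / g : ℕ) : ℝ))) := by
    intro g hg
    have hgd : g ∣ q := Nat.dvd_of_mem_divisors hg
    have hg0 : 0 < g := Nat.pos_of_mem_divisors hg
    have hgR : (0 : ℝ) < g := by exact_mod_cast hg0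
    obtain ⟨q', hqq⟩ := hgd
    have hq'0 : 0 < q' := by
      apply Nat.pos_of_ne_zero; rintro rfl; simp at hqq; omega
    have hq'R : (0 : ℝ) < q' := by exact_mod_cast hq'0
    have hdiv : q / g = q' := by rw [hqq]; exact Nat.mul_div_cancel_left q' hg0
    rw [hdiv]
    set S' := (S.filter (fun r => Nat.gcd q r = g)).filter (fun r => Cs γ K ψ q r ≠ 0) with hS'
    have hsum : ∑ r ∈ S.filter (fun r => Nat.gcd q r = g),
        (1 / (8 * (r : ℝ) ^ 2)) * (Cs γ K ψ q r : ℝ)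
        = ∑ r ∈ S', (1 / (8 * (r : ℝ) ^ 2)) * (Cs γ K ψ q r : ℝ) := by
      exact (Finset.sum_filter_of_ne (s := S.filter (fun r => Nat.gcd q r = g))
        (fun r _ h => by intro h0; apply h; rw [h0]; simp)).symm
    have hmem : ∀ r ∈ S', ∃ r' : ℕ, r = g * r' ∧ q' < r' ∧ r' < g * q' ∧ Nat.Coprime q' r' ∧
        1 / (16 * ((g * r' : ℕ) : ℝ) ^ 2) < ψ (g * q') / (g * q' : ℕ) ∧
        Cs γ K ψ q r ≠ 0 := by
      intro r hr
      obtain ⟨h3, h4⟩ := Finset.mem_filter.mp hr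
      obtain ⟨h5, h6⟩ := Finset.mem_filter.mp h3
      obtain ⟨h7, h8, h9, h10⟩ := Finset.mem_filter.mp h5
      have hgr : g ∣ r := by rw [← h6]; exact Nat.gcd_dvd_right q r
      obtain ⟨r', hrr⟩ := hgr
      refine ⟨r', hrr, ?_, ?_, ?_, ?_, h4⟩
      · rw [hqq, hrr] at h8
        exact Nat.lt_of_mul_lt_mul_left h8
      · rw [h6, hqq, hrr] at h9
        have : g * r' < g * (g * q') := h9
        exact Nat.lt_of_mul_lt_mul_left this
      · rw [hqq, hrr, Nat.gcd_mul_left] at h6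
        have : Nat.gcd q' r' = 1 := by
          have h11 : g * Nat.gcd q' r' = g * 1 := by rw [h6]; ring
          exact Nat.eq_of_mul_eq_mul_left hg0 h11
        exact this
      · rw [← hqq, ← hrr]; exact h10
    have hCs : ∀ r ∈ S', (1 / (8 * (r : ℝ) ^ 2)) * (Cs γ K ψ q r : ℝ)
        ≤ (fun n : ℕ => (g : ℝ) / (8 * ((g * n : ℕ) : ℝ) ^ 2)) (r / g) := by
      intro r hr
      obtain ⟨r', hrr, hq'r, hclose, hcop, hρ, _⟩ := hmem r hr
      have hr'0 : 0 < r' := by omega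
      have hr'R : (0 : ℝ) < r' := by exact_mod_cast hr'0
      have hr1 : 1 ≤ r := by rw [hrr]; exact Nat.mul_pos hg0 hr'0
      have e : r / g = r' := by rw [hrr]; exact Nat.mul_div_cancel_left _ hg0
      simp only [e]
      have h3 := (Cs_le γ K ψ hψ0 g q' r' hg0 hq'0 hr'0 hcop).2 ?_
      · rw [← hqq, ← hrr] at h3
        have h4 : (Cs γ K ψ q r : ℝ) ≤ g := by exact_mod_cast h3
        rw [← hrr]
        calc (1 / (8 * (r : ℝ) ^ 2)) * (Cs γ K ψ q r : ℝ) ≤ (1 / (8 * (r : ℝ) ^ 2)) * g := by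
              apply mul_le_mul_of_nonneg_left h4 (by positivity)
          _ = _ := by ring
      · have a1 := hψ1 (g * q') (by rw [← hqq]; exact hq)
        have a2 := hψ1 (g * r') (by rw [← hrr]; exact hr1)
        have p1 : (0 : ℝ) < ((g * q' : ℕ) : ℝ) := by positivity
        have p2 : (0 : ℝ) < ((g * r' : ℕ) : ℝ) := by positivity
        rw [div_le_div_iff₀ p1 (by positivity)] at a1
        rw [div_le_div_iff₀ p2 (by positivity)] at a2
        have b1 : ψ (g * q') * (16 * ((g * q' : ℕ) : ℝ)) ≤ 1 := by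
          have : ψ (g * q') * (16 * ((g * q' : ℕ) : ℝ)) * ((g * q' : ℕ) : ℝ) ≤ 1 * ((g * q' : ℕ) : ℝ) := by
            calc _ = ψ (g * q') * (16 * ((g * q' : ℕ) : ℝ) ^ 2) := by ring
              _ ≤ _ := a1
          exact le_of_mul_le_mul_right this p1
        have b2 : ψ (g * r') * (16 * ((g * r' : ℕ) : ℝ)) ≤ 1 := by
          have : ψ (g * r') * (16 * ((g * r' : ℕ) : ℝ)) * ((g * r' : ℕ) : ℝ) ≤ 1 * ((g * r' : ℕ) : ℝ) := by
            calc _ = ψ (g * r') * (16 * ((g * r' : ℕ) : ℝ) ^ 2) := by ring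
              _ ≤ _ := a2
          exact le_of_mul_le_mul_right this p2
        have c1 : (r' : ℝ) * ψ (g * q') ≤ 1 / 16 := by
          have : (r' : ℝ) ≤ ((g * q' : ℕ) : ℝ) := by exact_mod_cast hclose.le
          have := hψ0 (g * q')
          nlinarith
        have c2 : (q' : ℝ) * ψ (g * r') ≤ 1 / 16 := by
          have : (q' : ℝ) ≤ ((g * r' : ℕ) : ℝ) := by
            have : q' ≤ g * r' := by nlinarith
            exact_mod_cast this
          have := hψ0 (g * r')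
          nlinarith
        linarith
    have hinj : Set.InjOn (fun r => r / g) S' := by
      intro r hr r₂ hr₂ he
      obtain ⟨r', hrr, _⟩ := hmem r hr
      obtain ⟨r₂', hrr₂, _⟩ := hmem r₂ hr₂
      simp only at he
      rw [hrr, hrr₂, Nat.mul_div_cancel_left _ hg0, Nat.mul_div_cancel_left _ hg0] at he
      rw [hrr, hrr₂, he]
    rw [hsum]
    refine (Finset.sum_le_sum hCs).trans ?_
    rw [← Finset.sum_image (f := fun n : ℕ => (g : ℝ) / (8 * ((g * n : ℕ) : ℝ) ^ 2)) hinj]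
    refine (sum_II γ K (by linarith) ψ hψ0 g q' hg0 hq'0 (S'.image (fun r => r / g)) ?_).trans
      (le_of_eq ?_)
    · intro r' hr'
      obtain ⟨r, hr, rfl⟩ := Finset.mem_image.mp hr'
      obtain ⟨r', hrr, h3, h4, h5, h6, h7⟩ := hmem r hr
      have e : r / g = r' := by rw [hrr]; exact Nat.mul_div_cancel_left _ hg0
      simp only [e]
      refine ⟨h3, h4, h5, hψ1 _ (Nat.mul_pos hg0 (by omega)), h6, ?_⟩
      rw [hqq, hrr] at h7
      exact Cs_exists h7
    · rw [← hqq]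
      field_simp
      ring
  refine (Finset.sum_le_sum h2).trans ?_
  rw [← Finset.mul_sum, Finset.sum_add_distrib, Finset.sum_add_distrib, ← Finset.mul_sum,
    ← Finset.mul_sum, ← Finset.mul_sum, Nat.sum_div_divisors q (fun d : ℕ => 1 / (d : ℝ))]
  have hF := sum_inv_le_F q
  have hF2 := sum_log_div_le_F q
  have hF1 := one_le_F hq
  have hψq := hψ0 q
  calc _ ≤ ψ q * ((16 * (2 * F q) + 32 * F q) + (32 / 3 * (K + 1) + 4 * K) * F q) := by
        gcongr
    _ ≤ 90 * K * ψ q * F q := by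
        have : 0 ≤ ψ q * F q := by positivity
        nlinarith

end Vale.Agent.H4.IDS
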